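import Vale.Agent.P097.H772.Lin2
import Vale.Agent.P097.H791.Iso2

/-! # P097 / Case I: EVENNESS AT ISOTROPIC ENDS.  At an isotropic end of exponent `3`
(`exp (s i ψ) = ξ ^ N`, `ρ = ξ ^ (3 N) R(ξ)`) all the coefficients `R_j` with `j` not a multiple of
`2 N` vanish.  For `N = 1`: `R` is even.  Owner: helper772. -/

set_option linter.all false

open Complex Metric Filter Topology Set

namespace Vale.Agent.P097.H772

open Vale.Agent.P097.NZ Vale.Agent.P097.Alg Vale.Agent.P097.H357 Vale.Agent.P097.H328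

variable {N : ℕ} {R : ℂ → ℂ}

theorem snc_neg (u : ℂ) : snc (-u) = snc u := by
  rcases eq_or_ne u 0 with h | h
  · rw [h, neg_zero]
  · refine mul_left_cancel₀ h ?_
    have h1 := mul_snc u
    have h2 := mul_snc (-u)
    rw [Complex.sin_neg] at h2
    linear_combination -h2 - h1

/-- `e^{iyX} sin (y (X - 1)) = sin y` -/
theorem rel1 {x : ℂ → ℂ} {y : ℂ} (h : Rt x y) :
    exp (I * (y * x y)) * sin (y * (x y - 1)) = sin y := by
  have h2 := h.2.1
  set X := x y with hX
  have e1 : exp (I * (y * X)) * exp (-(y * (X - 1)) * I) = exp (y * I) := by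
    rw [← Complex.exp_add]; congr 1; ring
  have e2 : exp (I * (y * X)) * exp (y * (X - 1) * I) = exp (2 * I * (y * X)) * exp (-y * I) := by
    rw [← Complex.exp_add, ← Complex.exp_add]; congr 1; ring
  have e3 : exp (2 * I * y) * exp (-y * I) = exp (y * I) := by
    rw [← Complex.exp_add]; congr 1; ring
  rw [Complex.sin, Complex.sin]
  have e4 : exp (2 * I * (y * X)) * exp (-y * I) = 2 * exp (y * I) - exp (-y * I) := by
    rw [h2]; linear_combination 2 * e3
  rw [e4] at e2
  linear_combination (I / 2) * e1 - (I / 2) * e2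

/-- `e^{iy(X-1)} sin (y (X - 1)) = e^{-iy} sin y` -/
theorem rel2 {x : ℂ → ℂ} {y : ℂ} (h : Rt x y) :
    exp (I * (y * (x y - 1))) * sin (y * (x y - 1)) = exp (-(I * y)) * sin y := by
  have e1 : exp (I * (y * (x y - 1))) = exp (-(I * y)) * exp (I * (y * x y)) := by
    rw [← Complex.exp_add]; congr 1; ring
  rw [e1, ← rel1 h]
  ring

/-- `e^{2iyX} - 1 = 4 i e^{iy} sin y` -/
theorem rel3 {x : ℂ → ℂ} {y : ℂ} (h : Rt x y) :
    exp (2 * I * (y * x y)) - 1 = 4 * I * (exp (I * y) * sin y) := by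
  rw [h.2.1, Complex.sin]
  have e1 : exp (I * y) * exp (-y * I) = 1 := by
    rw [← Complex.exp_add]
    simp [mul_comm]
  have e2 : exp (I * y) * exp (y * I) = exp (2 * I * y) := by
    rw [← Complex.exp_add]; congr 1; ring
  linear_combination (-2 * I ^ 2) * e1 + 2 * I ^ 2 * e2 + 2 * (exp (2 * I * y) - 1) * I_sq

theorem base_law {x : ℂ → ℂ} {y : ℂ} (h : Rt x y) :
    exp (3 * (I * (y * x y))) * sin (y * (x y - 1)) ^ 3 = sin y ^ 3 := by
  rw [← rel1 h, mul_pow, ← Complex.exp_nat_mul]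
  push_cast
  rfl

theorem sin_cube : (fun y : ℂ => sin y ^ 3 - y ^ 3) =O[𝓝 0] fun y : ℂ => y ^ 5 := by
  have h1 : (fun y : ℂ => sin y - y) =O[𝓝 0] fun y : ℂ => y ^ 3 := by
    rw [Asymptotics.isBigO_iff]
    refine ⟨1 / 6 + 5 / 96, ?_⟩
    filter_upwards [closedBall_mem_nhds (0 : ℂ) one_pos] with y hy
    rw [mem_closedBall_zero_iff] at hy
    have h3 := Complex.sin_bound hy
    have h4 : sin y - y = (sin y - (y - y ^ 3 / 6)) + -(y ^ 3 / 6) := by ring
    rw [h4]
    refine (norm_add_le _ _).trans ?_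
    rw [norm_neg, norm_div, norm_pow]
    have h5 : ‖(6 : ℂ)‖ = 6 := by norm_num
    rw [h5]
    have h6 : ‖y‖ ^ 5 ≤ ‖y‖ ^ 3 := pow_le_pow_of_le_one (norm_nonneg _) hy (by norm_num)
    have h7 : 0 ≤ ‖y‖ ^ 3 := by positivity
    linarith
  have h2 : (fun y : ℂ => sin y ^ 2 + sin y * y + y ^ 2) =O[𝓝 0] fun y : ℂ => y ^ 2 := by
    have hs : (fun y : ℂ => sin y) =O[𝓝 0] fun y : ℂ => y := by
      have := (Complex.hasDerivAt_sin 0).isBigO_sub
      simpa using this
    have h3 := (hs.mul hs)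
    have h4 := hs.mul (Asymptotics.isBigO_refl (fun y : ℂ => y) (𝓝 0))
    have h5 := Asymptotics.isBigO_refl (fun y : ℂ => y ^ 2) (𝓝 0)
    have h6 : (fun y : ℂ => y * y) = fun y => y ^ 2 := by funext y; ring
    rw [h6] at h3 h4
    have h7 := (h3.add h4).add h5
    refine h7.congr_left fun y => ?_
    ring
  have h3 := h1.mul h2
  refine (h3.congr_left fun y => ?_).congr_right fun y => ?_
  · ring
  · ring

/-- the coefficients vanish -/
theorem evenCore (A : RootA) (hN : 1 ≤ N) (hR : AnalyticAt ℂ R 0) (hR0 : R 0 ≠ 0)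
    {H : ℂ × ℂ → ℂ} (hH : AnalyticAt ℂ H (0, 0))
    (hodd : ∀ᶠ p in 𝓝 ((0, 0) : ℂ × ℂ), H (p.1, -p.2) = -H p)
    (h13 : ∀ᶠ ξ in 𝓝 (0 : ℂ), iteratedDeriv 1 (fun η => H (ξ, η)) 0 = 0 ∧
      iteratedDeriv 3 (fun η => H (ξ, η)) 0 = 4)
    (law : ∀ᶠ p in 𝓝 ((0, 0) : ℂ × ℂ), exp (3 * (I * (p.2 * rI N R p))) *
      (R (p.1 * exp (I * (p.2 * rI N R p) / N)) *
        H (p.1 * exp (I * (p.2 * rI N R p) / N), p.2 * (rI N R p - 1))) = R p.1 * H p) :
    ∀ m : ℕ, ¬ 2 * N ∣ m → iteratedDeriv m R 0 = 0 := by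
  have hNne : N ≠ 0 := by omega
  have hNC : (N : ℂ) ≠ 0 := by exact_mod_cast hNne
  obtain ⟨W, hW, hHW⟩ := H_struct hH hodd h13
  have hRp : AnalyticAt ℂ (fun p : ℂ × ℂ => R p.1) (0, 0) := hR.comp_of_eq analyticAt_fst rfl
  set L : ℂ × ℂ → ℂ := fun p => R p.1 * H p with hLdef
  set V : ℂ × ℂ → ℂ := fun p => R p.1 * W p with hVdef
  have hL : AnalyticAt ℂ L (0, 0) := hRp.mul hH
  have hV : AnalyticAt ℂ V (0, 0) := hRp.mul hW
  have hLV : ∀ᶠ p in 𝓝 ((0, 0) : ℂ × ℂ), L p = 2 / 3 * p.2 ^ 3 * R p.1 + p.2 ^ 5 * V p := by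
    filter_upwards [hHW] with p hp
    simp only [hLdef, hVdef, hp]
    ring
  have hLodd : ∀ᶠ p in 𝓝 ((0, 0) : ℂ × ℂ), L (p.1, -p.2) = -L p := by
    filter_upwards [hodd] with p hp
    simp only [hLdef, hp]
    ring
  have law' : ∀ᶠ p in 𝓝 ((0, 0) : ℂ × ℂ), exp (3 * (I * (p.2 * rI N R p))) *
      L (p.1 * exp (I * (p.2 * rI N R p) / N), p.2 * (rI N R p - 1)) = L p := law
  have hRt := rI_root (N := N) A hR hR0
  -- the base solution
  have hbase : ∀ᶠ y in 𝓝 (0 : ℂ), L (0, y) - R 0 * (2 / 3) * sin y ^ 3 = 0 := by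
    have hLy : AnalyticAt ℂ (fun y => L (0, y)) 0 := analyticAt_pair2 hL
    have hsinan : AnalyticAt ℂ (fun y : ℂ => sin y) 0 := Complex.analyticAt_sin
    refine hom (θ := 0) le_rfl (by norm_num) (x := fun y => rI N R (0, y))
      (hLy.sub ((analyticAt_const).mul (hsinan.pow 3))) ?_ hRt ?_
    · have hVy : (fun y => V (0, y)) =O[𝓝 0] fun _ : ℂ => (1 : ℂ) :=
        (analyticAt_pair2 hV).continuousAt.tendsto.isBigO_one ℂ
      have h1 : (fun y => L (0, y) - R 0 * (2 / 3) * sin y ^ 3) =ᶠ[𝓝 0]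
          fun y => y ^ 5 * V (0, y) - R 0 * (2 / 3) * (sin y ^ 3 - y ^ 3) := by
        filter_upwards [ev_axis hLV] with y hy
        rw [hy]
        ring
      refine h1.trans_isBigO (Asymptotics.IsBigO.sub ?_ (sin_cube.const_mul_left _))
      simpa using (Asymptotics.isBigO_refl (fun y : ℂ => y ^ 5) (𝓝 0)).mul hVy
    · filter_upwards [(ev_axis law').filter_mono nhdsWithin_le_nhds, hRt] with y hy hy2
      have g1 := base_law hy2
      simp only [zero_mul] at hy
      have g2 : ((3 : ℂ) + 2 * ((0 : ℝ) : ℂ)) = 3 := by push_cast; ring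
      rw [g2]
      linear_combination hy - R 0 * (2 / 3) * g1
  have h00 : ∀ᶠ y in 𝓝 (0 : ℂ), L (0, y) = R 0 * (2 / 3) * sin y ^ 3 := by
    filter_upwards [hbase] with y hy
    linear_combination hy
  -- the induction
  set ω : ℂ := Complex.exp (2 * Real.pi * I / ((2 * N : ℕ) : ℂ)) with hωdef
  have h2N : 2 * N ≠ 0 := by omega
  have hprim : IsPrimitiveRoot ω (2 * N) := Complex.isPrimitiveRoot_exp (2 * N) h2N
  have hω : ω ^ (2 * N) = 1 := hprim.pow_eq_one
  have hω1 : ‖ω‖ = 1 := Complex.norm_eq_one_of_pow_eq_one hω h2N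
  have key : ∀ m : ℕ, ¬ 2 * N ∣ m →
      (∀ᶠ y in 𝓝 (0 : ℂ), c1 L m y = 0) ∧ iteratedDeriv m R 0 = 0 := by
    intro m
    induction m using Nat.strong_induction_on with
    | _ m ih =>
      intro hdvd
      have hωm : ω ^ m - 1 ≠ 0 := by
        rw [sub_ne_zero]
        intro h
        exact hdvd ((hprim.pow_eq_one_iff_dvd m).1 h)
      have hωi : ∀ i : ℕ, 2 * N ∣ i → ω ^ i = 1 := fun i hi => (hprim.pow_eq_one_iff_dvd i).2 hi
      obtain ⟨Q, hQ, hLQ, hQ0⟩ := sheet hL hω1 m (by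
        intro i hi
        by_cases hd : 2 * N ∣ i
        · refine Filter.Eventually.of_forall fun y => ?_
          rw [hωi i hd]
          ring
        · filter_upwards [(ih i hi hd).1] with y hy
          rw [hy, mul_zero])
      obtain ⟨QR, hQR, hRQ, hQR0⟩ := sheet hRp hω1 m (by
        intro i hi
        by_cases hd : 2 * N ∣ i
        · refine Filter.Eventually.of_forall fun y => ?_
          rw [hωi i hd]
          ring
        · refine Filter.Eventually.of_forall fun y => ?_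
          have h1 : c1 (fun p : ℂ × ℂ => R p.1) i y = iteratedDeriv i R 0 / (i.factorial : ℂ) := rfl
          rw [h1, (ih i hi hd).2, zero_div, mul_zero])
      have hS : AnalyticAt ℂ (fun ξ => QR (ξ, 0)) 0 := analyticAt_pair hQR
      have hRS : ∀ᶠ ξ in 𝓝 (0 : ℂ), R (ω * ξ) - R ξ = ξ ^ m * QR (ξ, 0) := by
        filter_upwards [eventually_axis hRQ] with ξ hξ
        exact hξ
      set θ : ℝ := (m : ℝ) / (2 * N) with hθ
      have hNR : (0 : ℝ) < N := by exact_mod_cast Nat.pos_of_ne_zero hNne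
      have hm0 : 0 < m := by
        rcases Nat.eq_zero_or_pos m with h | h
        · exact absurd (h ▸ dvd_zero (2 * N)) hdvd
        · exact h
      have hmR : (0 : ℝ) < m := by exact_mod_cast hm0
      have hθ0 : 0 < θ := by positivity
      have hθZ : ∀ n : ℤ, θ ≠ n := by
        intro n hn
        rw [hθ, div_eq_iff (by positivity)] at hn
        have h1 : (m : ℤ) = n * (2 * N) := by exact_mod_cast hn
        have h2 : ((2 * N : ℕ) : ℤ) ∣ (m : ℤ) := ⟨n, by rw [h1]; push_cast; ring⟩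
        exact hdvd (by exact_mod_cast h2)
      have hθm : 2 * (θ : ℂ) = m / N := by
        rw [hθ]
        push_cast
        field_simp
      have hlin := linI (S := fun ξ => QR (ξ, 0)) A hR hR0 hL law' h00 hQ hLQ hS hRS hθ0.le hθm
      set rm : ℂ := iteratedDeriv m R 0 / (m.factorial : ℂ) with hrm
      have hS0 : QR (0, 0) = (ω ^ m - 1) * rm := hQR0 0
      have hlamodd : ∀ᶠ y in 𝓝 (0 : ℂ), c1 L m (-y) = -c1 L m y := by
        obtain ⟨s, hs1, hs2⟩ := exists_polydisc hLodd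
        filter_upwards [ball_mem_nhds (0 : ℂ) hs1] with y hy
        have h1 : (fun ξ => L (ξ, -y)) =ᶠ[𝓝 0] fun ξ => -L (ξ, y) := by
          filter_upwards [ball_mem_nhds (0 : ℂ) hs1] with ξ hξ
          exact hs2 ξ hξ y hy
        have h2 := h1.iteratedDeriv_eq m
        rw [iteratedDeriv_fun_neg] at h2
        have h4 : c1 L m y = iteratedDeriv m (fun ξ => L (ξ, y)) 0 / (m.factorial : ℂ) := rfl
        have h5 : c1 L m (-y) = iteratedDeriv m (fun ξ => L (ξ, -y)) 0 / (m.factorial : ℂ) := rfl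
        rw [h4, h5, h2]
        ring
      -- the scalar law
      have hscal : ∀ᶠ y in 𝓝[≠] (0 : ℂ),
          exp ((3 + 2 * θ) * (I * (y * rI N R (0, y)))) * c1 L m (y * (rI N R (0, y) - 1)) -
            c1 L m y = rm * (2 * (Jq θ y (rI N R (0, y)) * (exp (I * (y * (rI N R (0, y) - 1))) *
              sin (y * (rI N R (0, y) - 1))))) := by
        filter_upwards [hlin] with y hy
        rw [hQ0, hQ0, hS0] at hy
        refine mul_left_cancel₀ hωm ?_
        linear_combination hy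
      have hrm0 : rm = 0 := by
        refine inh2 hθ0 hθZ (F := fun y => c1 L m y - rm * (2 / 3) * sin y ^ 3)
          (x := fun y => rI N R (0, y)) ?_ ?_ hRt ?_
        · exact (c1_an hL m).sub (analyticAt_const.mul (Complex.analyticAt_sin.pow 3))
        · filter_upwards [hlamodd] with y hy
          rw [hy, Complex.sin_neg]
          ring
        · have hs : ∀ᶠ z in 𝓝[≠] (0 : ℂ), sin z ≠ 0 := by
            have h6 : ∀ᶠ z in 𝓝 (0 : ℂ), snc z ≠ 0 :=
              (snc_an 0).continuousAt.eventually_ne (by rw [snc_zero]; exact one_ne_zero)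
            filter_upwards [h6.filter_mono nhdsWithin_le_nhds, self_mem_nhdsWithin] with z hz hz0
            rw [← mul_snc]
            exact mul_ne_zero hz0 hz
          filter_upwards [hscal, hRt, hs] with y hy hy2 hy3
          have b1 := base_law hy2
          have b2 := rel2 hy2
          have b3 := rel3 hy2
          have hne : exp (2 * I * (y * rI N R (0, y))) - 1 ≠ 0 := by
            rw [b3]
            exact mul_ne_zero (mul_ne_zero (by norm_num) I_ne_zero)
              (mul_ne_zero (Complex.exp_ne_zero _) hy3)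
          set X := rI N R (0, y) with hX
          have e1 : exp ((3 + 2 * (θ : ℂ)) * (I * (y * X))) =
              exp (2 * (θ : ℂ) * (I * (y * X))) * exp (3 * (I * (y * X))) := by
            rw [← Complex.exp_add]; congr 1; ring
          have e2 : exp (-(I * y)) * exp (I * y) = 1 := by
            rw [← Complex.exp_add]; simp
          have e3 : 2 * (Jq θ y X * (exp (I * (y * (X - 1))) * sin (y * (X - 1)))) =
              -(8 / I * sin y ^ 2 * Jq θ y X / (exp (2 * I * (y * X)) - 1)) := by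
            rw [b2]
            have e4 : (8 : ℂ) / I = -8 * I := by
              rw [div_eq_iff I_ne_zero]
              linear_combination (8 : ℂ) * I_mul_I
            rw [← neg_div, eq_div_iff hne, b3, e4]
            linear_combination (8 * I * sin y ^ 2 * Jq θ y X) * e2
          rw [e3] at hy
          rw [Sq]
          rw [e1] at hy ⊢
          linear_combination hy - rm * (2 / 3) * exp (2 * (θ : ℂ) * (I * (y * X))) * b1
      have h1 : iteratedDeriv m R 0 = 0 := by
        rw [hrm, div_eq_zero_iff] at hrm0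
        exact hrm0.resolve_right (by exact_mod_cast m.factorial_ne_zero)
      refine ⟨hom2 hθZ (x := fun y => rI N R (0, y)) (c1_an hL m) hlamodd hRt ?_, h1⟩
      filter_upwards [hscal] with y hy
      rw [hrm0] at hy
      linear_combination hy
  intro m hm
  exact (key m hm).2

/-! ## the isotropic ends -/

theorem kI_one (hN : N ≠ 0) (p : ℂ × ℂ) : ki 1 N (3 * N) R p = kI N R p := by
  have hNC : (N : ℂ) ≠ 0 := by exact_mod_cast hN
  funext v
  have e1 : (1 : ℂ) * I * (((3 * (N : ℤ) : ℤ) : ℂ) / N) * (p.2 * v) = 3 * (I * (p.2 * v)) := by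
    push_cast
    field_simp
  have e2 : (1 : ℂ) * I * (p.2 * v) = I * (p.2 * v) := by ring
  simp only [ki, kI, e1, e2]

theorem kI_neg (hN : N ≠ 0) (p : ℂ × ℂ) : ki (-1) N (3 * N) R (p.1, -p.2) = kI N R p := by
  have hNC : (N : ℂ) ≠ 0 := by exact_mod_cast hN
  funext v
  have e1 : (-1 : ℂ) * I * (((3 * (N : ℤ) : ℤ) : ℂ) / N) * (-p.2 * v) = 3 * (I * (p.2 * v)) := by
    push_cast
    field_simp
  have e2 : (-1 : ℂ) * I * (-p.2 * v) = I * (p.2 * v) := by ring
  have e3 : -p.2 * (v - 1) = -(p.2 * (v - 1)) := by ring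
  simp only [ki, kI, e1, e2, e3, snc_neg]

/-- EVENNESS: at an isotropic end of exponent `3` all the coefficients of order not divisible by
`2 N` vanish -/
theorem even_end {s : ℂ} {ε : ℝ} (E : EndI s N (3 * N) R ε) :
    ∀ m : ℕ, ¬ 2 * N ∣ m → iteratedDeriv m R 0 = 0 := by
  have A : RootA := H65.rootA
  have hN := E.hN
  have hNne : N ≠ 0 := by omega
  have hNC : (N : ℂ) ≠ 0 := by exact_mod_cast hNne
  have hmem0 : (0 : ℂ) ∈ ball (0 : ℂ) ε := mem_ball_self E.hε
  have hR : AnalyticAt ℂ R 0 := E.dR.analyticAt (isOpen_ball.mem_nhds hmem0)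
  have hR0 := E.R0 0 hmem0
  obtain ⟨H, hH, hodd, h13, law⟩ := lawI0 A s N (3 * N) R ε E
  refine evenCore A hN hR hR0 hH hodd h13 ?_
  rcases E.hs with hs | hs
  · subst hs
    filter_upwards [law] with p hp
    have hr : ri 1 N (3 * N) R p = rI N R p := by rw [ri, rI, kI_one hNne]
    have hT : Ti 1 N (3 * N) R p =
        (p.1 * exp (I * (p.2 * rI N R p) / N), p.2 * (rI N R p - 1)) := by
      rw [Ti, hr, one_mul]
    rw [hT, hr] at hp
    have e1 : (1 : ℂ) * I * (((3 * (N : ℤ) : ℤ) : ℂ) / N) * (p.2 * rI N R p) =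
        3 * (I * (p.2 * rI N R p)) := by
      push_cast
      field_simp
    rw [e1] at hp
    rw [← mul_assoc]
    exact hp
  · subst hs
    have hneg : Tendsto (fun p : ℂ × ℂ => ((p.1, -p.2) : ℂ × ℂ)) (𝓝 (0, 0)) (𝓝 (0, 0)) := by
      have : Continuous (fun p : ℂ × ℂ => ((p.1, -p.2) : ℂ × ℂ)) := by fun_prop
      have h := this.tendsto ((0, 0) : ℂ × ℂ)
      simpa using h
    have hXan := rI_an (N := N) A hR hR0
    have hT : Tendsto (fun p : ℂ × ℂ => ((p.1 * exp (I * (p.2 * rI N R p) / N),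
        p.2 * (rI N R p - 1)) : ℂ × ℂ)) (𝓝 (0, 0)) (𝓝 (0, 0)) := by
      have h1 : ContinuousAt (fun p : ℂ × ℂ => ((p.1 * exp (I * (p.2 * rI N R p) / N),
          p.2 * (rI N R p - 1)) : ℂ × ℂ)) (0, 0) := by
        have h2 := hXan.continuousAt
        refine ContinuousAt.prodMk (continuousAt_fst.mul ?_)
          (continuousAt_snd.mul (h2.sub continuousAt_const))
        exact ((continuousAt_const.mul (continuousAt_snd.mul h2)).div_const _).cexp
      refine h1.tendsto.trans (le_of_eq ?_)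
      simp
    filter_upwards [hneg.eventually law, hodd, hT.eventually hodd] with p hp ho1 ho2
    have hr : ri (-1) N (3 * N) R (p.1, -p.2) = rI N R p := by rw [ri, rI, kI_neg hNne]
    have hT : Ti (-1) N (3 * N) R (p.1, -p.2) =
        (p.1 * exp (I * (p.2 * rI N R p) / N), -(p.2 * (rI N R p - 1))) := by
      rw [Ti, hr]
      congr 1
      · congr 2
        ring
      · ring
    rw [hT, hr] at hp
    have e1 : (-1 : ℂ) * I * (((3 * (N : ℤ) : ℤ) : ℂ) / N) * (-p.2 * rI N R p) =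
        3 * (I * (p.2 * rI N R p)) := by
      push_cast
      field_simp
    rw [e1, ho2, ho1] at hp
    linear_combination -hp

/-- an isotropic end with `N = 1`, `ρ = ξ ^ 3 R(ξ)`: `R` is even -/
theorem even_iso {s : ℂ} {ε : ℝ} (E : EndI s 1 3 R ε) : ∀ᶠ ξ in 𝓝 (0 : ℂ), R (-ξ) = R ξ := by
  have h1 := even_end (N := 1) (R := R) (s := s) (ε := ε) (by simpa using E)
  have hmem0 : (0 : ℂ) ∈ ball (0 : ℂ) ε := mem_ball_self E.hε
  have hR : AnalyticAt ℂ R 0 := E.dR.analyticAt (isOpen_ball.mem_nhds hmem0)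
  have hRn : AnalyticAt ℂ (fun ξ => R (-ξ)) 0 :=
    AnalyticAt.comp_of_eq' hR (analyticAt_id.neg) (by simp)
  have hg : AnalyticAt ℂ (fun ξ => R (-ξ) - R ξ) 0 := hRn.sub hR
  have hz : ∀ n : ℕ, iteratedDeriv n (fun ξ => R (-ξ) - R ξ) 0 = 0 := by
    intro n
    have h2 : iteratedDeriv n (fun ξ => R (-ξ) - R ξ) 0 =
        iteratedDeriv n (fun ξ => R (-ξ)) 0 - iteratedDeriv n R 0 :=
      iteratedDeriv_sub hRn.contDiffAt hR.contDiffAt
    rw [h2, iteratedDeriv_comp_neg n R 0, neg_zero]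
    rcases Nat.even_or_odd n with hn | hn
    · rw [hn.neg_one_pow, one_smul, sub_self]
    · have h3 : ¬ 2 * 1 ∣ n := by
        rw [mul_one]
        intro h4
        exact (Nat.not_even_iff_odd.2 hn) (even_iff_two_dvd.2 h4)
      rw [h1 n h3, smul_zero, sub_zero]
  have h4 : ∀ᶠ ξ in 𝓝 (0 : ℂ), R (-ξ) - R ξ = 0 := by
    by_contra hcon
    obtain ⟨n, g, hg1, hg0, hgn⟩ := hg.exists_eventuallyEq_pow_smul_nonzero_iff.2 hcon
    have h5 := hg.hasFPowerSeriesAt
    have h6 : (FormalMultilinearSeries.ofScalars ℂ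
        (fun n => iteratedDeriv n (fun ξ => R (-ξ) - R ξ) 0 / (n.factorial : ℂ))) = 0 := by
      ext n
      simp [FormalMultilinearSeries.ofScalars, hz n]
    rw [h6] at h5
    exact hcon h5.eventually_eq_zero
  filter_upwards [h4] with ξ hξ
  exact sub_eq_zero.1 hξ

end Vale.Agent.P097.H772
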