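import Vale.Agent.P097.H772.Kill2

/-! # P097 / Case I: the homogeneous and the inhomogeneous linearised law at an isotropic end,
every exponent `β = 2θ` with `θ` not an integer.  Owner: helper772 (generalises helper328's
`hom`, `inh`). -/

set_option linter.all false

open Complex Metric Filter Topology Set Asymptotics

namespace Vale.Agent.P097.H772

open Vale.Agent.P097.H328

theorem norm_dl {t : ℝ} (ht : 0 < t) : ‖dl (t : ℂ)‖ = 1 / 2 * Real.log (1 + 1 / t) := by
  have h1 : (1 : ℂ) + (t : ℂ)⁻¹ = ((1 + 1 / t : ℝ) : ℂ) := by push_cast; rw [one_div]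
  have h0 : 0 < 1 / t := by positivity
  have h2 : 0 ≤ Real.log (1 + 1 / t) := Real.log_nonneg (by linarith)
  rw [dl, h1, ← Complex.ofReal_log (by positivity), norm_div, norm_real, Real.norm_eq_abs,
    abs_of_nonneg h2]
  have h3 : ‖(2 * I : ℂ)‖ = 2 := by simp
  rw [h3]
  ring

theorem norm_exp_ph {θ t : ℝ} (ht : 0 < t) :
    ‖exp ((3 / 2 + (θ : ℂ)) * (log (t : ℂ) + log ((t : ℂ) + 1)))‖ =
      t ^ (3 + 2 * θ) * (1 + 1 / t) ^ (3 / 2 + θ) := by
  have h3 : (t : ℂ) + 1 = ((t + 1 : ℝ) : ℂ) := by push_cast; rfl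
  have h4 : (3 / 2 + (θ : ℂ)) * (log (t : ℂ) + log ((t : ℂ) + 1)) =
      (((3 / 2 + θ) * (Real.log t + Real.log (t + 1)) : ℝ) : ℂ) := by
    rw [h3, ← Complex.ofReal_log ht.le, ← Complex.ofReal_log (by linarith)]
    push_cast
    ring
  have h5 : t + 1 = t * (1 + 1 / t) := by field_simp
  have h6 : 0 < 1 + 1 / t := by positivity
  rw [h4, Complex.norm_exp, ofReal_re, h5, Real.log_mul ht.ne' h6.ne', Real.rpow_def_of_pos ht,
    Real.rpow_def_of_pos h6, ← Real.exp_add]
  congr 1
  ring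

/-- the homogeneous law has no odd solution -/
theorem hom2 {θ : ℝ} (h1 : ∀ n : ℤ, θ ≠ n) {F x : ℂ → ℂ} (hF : AnalyticAt ℂ F 0)
    (odd : ∀ᶠ δ in 𝓝 (0 : ℂ), F (-δ) = -F δ) (hx : ∀ᶠ δ in 𝓝[≠] (0 : ℂ), Rt x δ)
    (hl : ∀ᶠ δ in 𝓝[≠] (0 : ℂ), exp ((3 + 2 * θ) * (I * (δ * x δ))) * F (δ * (x δ - 1)) = F δ) :
    ∀ᶠ δ in 𝓝 (0 : ℂ), F δ = 0 := by
  by_contra hcon
  obtain ⟨m, g, hg, hg0, hFg⟩ := hF.exists_eventuallyEq_pow_smul_nonzero_iff.2 hcon
  have hFg' : ∀ᶠ δ in 𝓝 (0 : ℂ), F δ = δ ^ m * g δ := by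
    filter_upwards [hFg] with δ hδ
    rw [hδ, sub_zero, smul_eq_mul]
  have hneg : Tendsto (fun δ : ℂ => -δ) (𝓝 0) (𝓝 0) := by
    have := (continuous_neg (G := ℂ)).tendsto 0
    rwa [neg_zero] at this
  -- parity
  have hmodd : Odd m := by
    rw [← Nat.not_even_iff_odd]
    intro hev
    have h2 : ∀ᶠ δ in 𝓝[≠] (0 : ℂ), g (-δ) + g δ = 0 := by
      filter_upwards [(odd.and (hFg'.and (hneg.eventually hFg'))).filter_mono nhdsWithin_le_nhds,
        self_mem_nhdsWithin] with δ hδ h0
      obtain ⟨a1, a2, a3⟩ := hδ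
      rw [a2, a3, hev.neg_pow] at a1
      have h3 : δ ^ m ≠ 0 := pow_ne_zero _ h0
      refine mul_left_cancel₀ h3 ?_
      linear_combination a1
    have h3 : Tendsto (fun δ : ℂ => g (-δ) + g δ) (𝓝[≠] 0) (𝓝 (g 0 + g 0)) := by
      have h4 : Tendsto (fun δ : ℂ => g (-δ) + g δ) (𝓝 0) (𝓝 (g 0 + g 0)) :=
        (hg.continuousAt.tendsto.comp hneg).add hg.continuousAt.tendsto
      exact h4.mono_left nhdsWithin_le_nhds
    have h4 : g 0 + g 0 = 0 :=
      tendsto_nhds_unique h3 (tendsto_const_nhds.congr' (h2.mono fun δ hδ => hδ.symm))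
    exact hg0 (by linear_combination (1 / 2 : ℂ) * h4)
  have hexp : (m : ℝ) - 3 - 2 * θ ≠ 0 := by
    intro h
    obtain ⟨k, hk⟩ := hmodd
    refine h1 (k - 1) ?_
    rw [hk] at h
    push_cast at h ⊢
    linarith
  obtain ⟨ρ, hρ, hP⟩ := exists_rho ((hx.and hl).and (hFg'.filter_mono nhdsWithin_le_nhds))
  have hnorm : ∀ t : ℝ, ρ < t → ρ < ‖(t : ℂ)‖ := by
    intro t ht
    rw [norm_real, Real.norm_eq_abs, abs_of_pos (by linarith)]
    exact ht
  have hslit : ∀ t : ℝ, ρ < t → (t : ℂ) ∈ slitPlane := fun t ht =>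
    slit_of_re (by simp; linarith)
  have step : ∀ t : ℝ, ρ < t → Ph θ F ((t + 1 : ℝ) : ℂ) = Ph θ F t := by
    intro t ht
    have g := hP t (hnorm t ht)
    have g1 := Ph_succ (θ := θ) (F := F) (s := (t : ℂ)) (by linarith [hnorm t ht]) g.1.1 (hslit t ht)
    rw [g.1.2] at g1
    rw [show ((t + 1 : ℝ) : ℂ) = (t : ℂ) + 1 by push_cast; rfl, ← g1]
    rfl
  have stepn : ∀ (n : ℕ) (t : ℝ), ρ < t → Ph θ F ((t + n : ℝ) : ℂ) = Ph θ F t := by
    intro n
    induction n with
    | zero => intro t _; simp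
    | succ n ih =>
      intro t ht
      have hn : (0 : ℝ) ≤ n := Nat.cast_nonneg n
      have := step (t + n) (by linarith)
      rw [← ih t ht, ← this]
      congr 2
      push_cast
      ring
  -- the size on the real axis
  have hsize : ∀ t : ℝ, ρ < t → ‖Ph θ F t‖ * t ^ ((m : ℝ) - 3 - 2 * θ) =
      (1 + 1 / t) ^ (3 / 2 + θ) * (1 / 2 * (t * Real.log (1 + 1 / t))) ^ m * ‖g (dl (t : ℂ))‖ := by
    intro t ht
    have ht0 : 0 < t := by linarith
    have h2 := (hP t (hnorm t ht)).2
    rw [Ph, norm_mul, norm_exp_ph ht0, h2, norm_mul, norm_pow, norm_dl ht0]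
    have h3 : t ^ (3 + 2 * θ) * t ^ ((m : ℝ) - 3 - 2 * θ) = t ^ m := by
      rw [← Real.rpow_add ht0, ← Real.rpow_natCast]
      congr 1
      ring
    rw [mul_pow, mul_pow, mul_pow, ← h3]
    ring
  have hlim : Tendsto (fun t : ℝ => ‖Ph θ F t‖ * t ^ ((m : ℝ) - 3 - 2 * θ)) atTop
      (𝓝 ((1 / 2) ^ m * ‖g 0‖)) := by
    have a0 : Tendsto (fun t : ℝ => 1 / t) atTop (𝓝 0) := by
      simpa using tendsto_inv_atTop_zero (𝕜 := ℝ)
    have a1 : Tendsto (fun t : ℝ => (1 + 1 / t) ^ (3 / 2 + θ)) atTop (𝓝 1) := by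
      have h2 : ContinuousAt (fun u : ℝ => (1 + u) ^ (3 / 2 + θ)) 0 :=
        ContinuousAt.rpow_const (by fun_prop) (Or.inl (by norm_num))
      have h3 := h2.tendsto.comp a0
      rw [add_zero, Real.one_rpow] at h3
      exact h3
    have a2 : Tendsto (fun t : ℝ => t * Real.log (1 + 1 / t)) atTop (𝓝 1) :=
      Real.tendsto_mul_log_one_add_div_atTop 1
    have a3 : Tendsto (fun t : ℝ => ‖g (dl (t : ℂ))‖) atTop (𝓝 ‖g 0‖) :=
      (hg.continuousAt.tendsto.comp (dl_tendsto.mono_right nhdsWithin_le_nhds)).norm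
    have h4 := (a1.mul ((a2.const_mul (1 / 2)).pow m)).mul a3
    rw [one_mul, mul_one] at h4
    refine h4.congr' ?_
    filter_upwards [eventually_gt_atTop ρ] with t ht
    exact (hsize t ht).symm
  set L : ℝ := (1 / 2) ^ m * ‖g 0‖ with hL
  have hLpos : 0 < L := by
    have : 0 < ‖g 0‖ := norm_pos_iff.2 hg0
    positivity
  -- along `t + n`
  set t : ℝ := ρ + 1 with ht
  set P : ℝ := ‖Ph θ F t‖ with hPdef
  have l1 : Tendsto (fun n : ℕ => t + (n : ℝ)) atTop atTop :=
    tendsto_atTop_add_const_left _ _ tendsto_natCast_atTop_atTop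
  have l2 : Tendsto (fun n : ℕ => P * (t + n) ^ ((m : ℝ) - 3 - 2 * θ)) atTop (𝓝 L) := by
    refine (hlim.comp l1).congr fun n => ?_
    simp only [Function.comp_apply]
    rw [stepn n t (by rw [ht]; linarith)]
  rcases lt_or_gt_of_ne hexp with h | h
  · -- the power tends to `0`
    have l3 : Tendsto (fun n : ℕ => (t + n) ^ ((m : ℝ) - 3 - 2 * θ)) atTop (𝓝 0) := by
      have h2 := (tendsto_rpow_neg_atTop (y := -((m : ℝ) - 3 - 2 * θ)) (by linarith)).comp l1
      refine h2.congr fun n => ?_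
      simp only [Function.comp_apply, neg_neg]
    have l4 := l3.const_mul P
    rw [mul_zero] at l4
    exact hLpos.ne' (tendsto_nhds_unique l2 l4)
  · have l3 : Tendsto (fun n : ℕ => (t + n) ^ ((m : ℝ) - 3 - 2 * θ)) atTop atTop :=
      (tendsto_rpow_atTop h).comp l1
    have hP0 : P ≠ 0 := by
      intro h0
      rw [h0] at l2
      simp only [zero_mul] at l2
      exact hLpos.ne' (tendsto_nhds_unique l2 tendsto_const_nhds)
    have hPpos : 0 < P := lt_of_le_of_ne (norm_nonneg _) (Ne.symm hP0)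
    have l4 := l3.const_mul_atTop hPpos
    exact not_tendsto_nhds_of_tendsto_atTop l4 _ l2

/-- the law with source is impossible -/
theorem inh2 {θ : ℝ} (h0 : 0 < θ) (h1 : ∀ n : ℤ, θ ≠ n) {F x : ℂ → ℂ} {a : ℂ} (hF : AnalyticAt ℂ F 0)
    (odd : ∀ᶠ δ in 𝓝 (0 : ℂ), F (-δ) = -F δ) (hx : ∀ᶠ δ in 𝓝[≠] (0 : ℂ), Rt x δ)
    (hl : ∀ᶠ δ in 𝓝[≠] (0 : ℂ), exp ((3 + 2 * θ) * (I * (δ * x δ))) * F (δ * (x δ - 1)) - F δ =
      -(a * Sq θ δ (x δ))) : a = 0 := by
  have hFe : ∀ᶠ δ in 𝓝[≠] (0 : ℂ), AnalyticAt ℂ F δ ∧ F (-δ) = -F δ :=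
    (hF.eventually_analyticAt.and odd).filter_mono nhdsWithin_le_nhds
  obtain ⟨ρ, hρ, hP⟩ := exists_rho ((hx.and hl).and hFe)
  have t1 : (θ : ℂ) + 1 ≠ 0 := by
    have : ((θ + 1 : ℝ) : ℂ) ≠ 0 := by exact_mod_cast (by positivity : θ + 1 ≠ 0)
    simpa using this
  have t2 : (θ : ℂ) + 2 ≠ 0 := by
    have : ((θ + 2 : ℝ) : ℂ) ≠ 0 := by exact_mod_cast (by positivity : θ + 2 ≠ 0)
    simpa using this
  have hnre : ∀ s : ℂ, ρ < s.re → ρ < ‖s‖ := fun s hs =>
    lt_of_lt_of_le hs ((le_abs_self _).trans (Complex.abs_re_le_norm s))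
  have hnim : ∀ s : ℂ, ρ < |s.im| → ρ < ‖s‖ := fun s hs =>
    lt_of_lt_of_le hs (Complex.abs_im_le_norm s)
  have key : a * I / 12 = 0 := by
    refine kill2 h0 h1 (Φ := Ph θ F) (ρ := ρ) ?_ ?_ ?_
    · intro s hs
      have hsl : s ∈ slitPlane := slit_of_re (by linarith)
      have hsl1 : s + 1 ∈ slitPlane := by simpa using slit_add hsl zero_le_one
      have hs1 : 1 < ‖s‖ := by linarith [hnre s hs]
      have d1 : DifferentiableAt ℂ dl s := by
        refine DifferentiableAt.div_const ?_ _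
        refine DifferentiableAt.clog ?_ ?_
        · exact (differentiableAt_inv (ne_zero_of hs1)).const_add 1
        · refine slit_of_re ?_
          rw [add_re, one_re, inv_re]
          have : 0 ≤ s.re / normSq s := div_nonneg (by linarith) (normSq_nonneg s)
          linarith
      have d2 : DifferentiableAt ℂ F (dl s) := (hP s (hnre s hs)).2.1.differentiableAt
      have d3 : DifferentiableAt ℂ (fun s : ℂ => log s + log (s + 1)) s :=
        (differentiableAt_log hsl).add ((differentiableAt_id.add_const 1).clog hsl1)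
      exact ((d3.const_mul _).cexp).mul (d2.comp s d1)
    · intro s hs
      have hn : ρ < ‖s‖ := hs.elim (hnre s) (hnim s)
      have hs1 : 1 < ‖s‖ := by linarith
      have hsl : s ∈ slitPlane := by
        rcases hs with h | h
        · exact slit_of_re (by linarith)
        · refine slit_of_im ?_
          intro h2
          rw [h2, abs_zero] at h
          linarith
      have s0 : s ≠ 0 := slitPlane_ne_zero hsl
      have hsl1 : s + 1 ∈ slitPlane := by simpa using slit_add hsl zero_le_one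
      have hsl2 : s + 2 ∈ slitPlane := by simpa using slit_add hsl zero_le_two
      have g := hP s hn
      have g1 := Ph_succ (θ := θ) (F := F) (s := s) hs1 g.1.1 hsl
      have g2 := g.1.2
      have r1 := root_log hs1 g.1.1 hsl
      have r2 := two_I_dl' hsl
      set A := log s with hA
      set Bq := log (s + 1) with hBq
      set Cq := log (s + 2) with hCq
      have xA : exp A = s := exp_log s0
      have xB : exp Bq = s + 1 := exp_log (slitPlane_ne_zero hsl1)
      have xC : exp Cq = s + 2 := exp_log (slitPlane_ne_zero hsl2)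
      set h := exp (A / 2) with hh
      set k := exp (Bq / 2) with hk
      set α := exp (θ * A) with hα
      set β := exp (θ * Bq) with hβ
      set γ := exp (θ * Cq) with hγ
      have h2 : h ^ 2 = s := by rw [hh, ← Complex.exp_nat_mul, ← xA]; congr 1; push_cast; ring
      have k2 : k ^ 2 = s + 1 := by rw [hk, ← Complex.exp_nat_mul, ← xB]; congr 1; push_cast; ring
      have h0' : h ≠ 0 := Complex.exp_ne_zero _
      have k0' : k ≠ 0 := Complex.exp_ne_zero _
      have α0 : α ≠ 0 := Complex.exp_ne_zero _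
      -- the exponentials
      have e1 : exp (I * dl s) = k / h := by
        rw [hk, hh, ← Complex.exp_sub]
        congr 1
        linear_combination (1 / 2) * r2
      have e2 : exp (-(I * dl s)) = h / k := by
        rw [Complex.exp_neg, e1, inv_div]
      have e3 : sin (dl s) = -I / (2 * (h * k)) := by
        have : sin (dl s) = (exp (-(I * dl s)) - exp (I * dl s)) * I / 2 := by
          rw [Complex.sin]
          congr 2
          rw [show -dl s * I = -(I * dl s) by ring, show dl s * I = I * dl s by ring]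
        rw [this, e1, e2]
        have : h ^ 2 - k ^ 2 = -1 := by rw [h2, k2]; ring
        field_simp
        linear_combination this
      have e4 : exp (2 * I * (dl s * x (dl s))) = (s + 2) / s := by
        rw [r1, Complex.exp_sub, xC, xA]
      have e5 : exp (2 * (θ : ℂ) * (I * (dl s * x (dl s)))) = γ / α := by
        rw [hγ, hα, ← Complex.exp_sub]
        congr 1
        linear_combination (θ : ℂ) * r1
      have e6 : exp ((4 + 2 * (θ : ℂ)) * (I * (dl s * x (dl s)))) = ((s + 2) / s) ^ 2 * (γ / α) := by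
        rw [← e4, ← e5, ← Complex.exp_nat_mul, ← Complex.exp_add]
        congr 1
        push_cast
        ring
      have e7 : exp ((2 + 2 * (θ : ℂ)) * (I * (dl s * x (dl s)))) = ((s + 2) / s) * (γ / α) := by
        rw [← e4, ← e5, ← Complex.exp_add]
        congr 1
        ring
      have e8 : exp ((3 / 2 + (θ : ℂ)) * (A + Bq)) = h ^ 3 * k ^ 3 * (α * β) := by
        rw [hh, hk, hα, hβ, ← Complex.exp_nat_mul, ← Complex.exp_nat_mul, ← Complex.exp_add,
          ← Complex.exp_add, ← Complex.exp_add]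
        congr 1
        push_cast
        ring
      have id := alg_id (θ := (θ : ℂ)) (β := β) (γ := γ) h2 k2 h0' k0' α0 t1 t2
      have hS : Sq θ (dl s) (x (dl s)) =
          8 / I * (-I / (2 * (h * k))) ^ 2 *
        (-(1 / 2) * ((h / k) * (((s + 2) / s) ^ 2 * (γ / α) - 1) / (4 + 2 * θ) -
          (k / h) * (((s + 2) / s) * (γ / α) - 1) / (2 + 2 * θ))) / ((s + 2) / s - 1) +
      2 / 3 * (γ / α - 1) * (-I / (2 * (h * k))) ^ 3 := by
        rw [Sq, Jq, e1, e2, e3, e4, e5, e6, e7]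
      have hG : Gq θ s = β * (γ * Pq θ s + α * Dq θ s) := rfl
      rw [← g1, Ph]
      rw [e8]
      rw [hG]
      have g3 : exp ((3 + 2 * (θ : ℂ)) * (I * (dl s * x (dl s)))) * F (dl s * (x (dl s) - 1)) =
          F (dl s) - a * Sq θ (dl s) (x (dl s)) := by linear_combination g2
      rw [g3, hS]
      linear_combination a * id
    · intro s hs
      have him : s.im < 0 := by linarith
      have habs : ρ < |s.im| := by rw [abs_of_neg him]; linarith
      have hn : ρ < ‖s‖ := hnim s habs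
      have hs1 : 1 < ‖s‖ := by linarith
      have hn' : ρ < ‖-1 - s‖ := hnim _ (by simpa using habs)
      have hs1' : 1 < ‖-1 - s‖ := by linarith
      have hsl : s ∈ slitPlane := slit_of_im him.ne
      have hsl' : -1 - s ∈ slitPlane := slit_of_im (by simpa using him.ne)
      have l1 : log (-1 - s) = log (s + 1) + Real.pi * I := by
        rw [show -1 - s = -(s + 1) by ring]
        exact log_neg_lower (by simpa using him)
      have l2 : log (-1 - s + 1) = log s + Real.pi * I := by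
        rw [show -1 - s + 1 = -s by ring]
        exact log_neg_lower him
      have r1 := two_I_dl' hsl
      have r2 := two_I_dl' hsl'
      have hd : dl (-1 - s) = -dl s := by
        have h6 : (2 * I : ℂ) ≠ 0 := by simp
        refine mul_left_cancel₀ h6 ?_
        rw [r2, l1, l2]
        linear_combination r1
      rw [Ph, Ph, hd, l1, l2, (hP s hn).2.2]
      have e1 : exp ((3 / 2 + (θ : ℂ)) * (log (s + 1) + Real.pi * I + (log s + Real.pi * I))) =
          -(exp (2 * Real.pi * I * θ) * exp ((3 / 2 + (θ : ℂ)) * (log s + log (s + 1)))) := by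
        have h7 : (3 / 2 + (θ : ℂ)) * (log (s + 1) + Real.pi * I + (log s + Real.pi * I)) =
            (2 * Real.pi * I * θ + (3 / 2 + (θ : ℂ)) * (log s + log (s + 1))) +
              (Real.pi * I + 2 * Real.pi * I) := by ring
        rw [h7, Complex.exp_add _ (Real.pi * I + 2 * Real.pi * I), Complex.exp_add (Real.pi * I),
          Complex.exp_pi_mul_I, Complex.exp_two_pi_mul_I, Complex.exp_add]
        ring
      rw [e1]
      ring
  have h12 : a * I = 0 := by linear_combination 12 * key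
  exact (mul_eq_zero.1 h12).resolve_right I_ne_zero

end Vale.Agent.P097.H772
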