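import Vale.Agent.P097.H357.L0
import Vale.Agent.P097.H772.Inh2

/-! # P097 / Case I: the linearised law at an isotropic end of exponent `3`, part 1: the chord
equation.  Owner: helper772 (model: helper357's L0b). -/

set_option linter.all false

open Complex Metric Filter Topology Set

namespace Vale.Agent.P097.H772

open Vale.Agent.P097.NZ Vale.Agent.P097.Alg Vale.Agent.P097.H357 Vale.Agent.P097.H328

variable {N m : ℕ} {R S : ℂ → ℂ}

/-- the kernel of the chord equation -/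
noncomputable def kI (N : ℕ) (R : ℂ → ℂ) (p : ℂ × ℂ) (v : ℂ) : ℂ :=
  exp (3 * (I * (p.2 * v))) * R (p.1 * exp (I * (p.2 * v) / N)) * snc (p.2 * (v - 1))

/-- the root -/
noncomputable def rI (N : ℕ) (R : ℂ → ℂ) (p : ℂ × ℂ) : ℂ := root (kI N R p)

theorem kI_an (hR : AnalyticAt ℂ R 0) (v : ℂ) :
    AnalyticAt ℂ (fun q : (ℂ × ℂ) × ℂ => kI N R q.1 q.2) ((0, 0), v) := by
  have h1 : AnalyticAt ℂ (fun q : (ℂ × ℂ) × ℂ => q.1.2 * q.2) ((0, 0), v) :=
    (an12 _).mul analyticAt_snd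
  have h2 : AnalyticAt ℂ (fun q : (ℂ × ℂ) × ℂ => exp (3 * (I * (q.1.2 * q.2)))) ((0, 0), v) :=
    (analyticAt_const.mul (analyticAt_const.mul h1)).cexp
  have h3 : AnalyticAt ℂ (fun q : (ℂ × ℂ) × ℂ => q.1.1 * exp (I * (q.1.2 * q.2) / N))
      ((0, 0), v) := (an11 _).mul ((analyticAt_const.mul h1).div_const).cexp
  have h5 : AnalyticAt ℂ (fun q : (ℂ × ℂ) × ℂ => q.1.2 * (q.2 - 1)) ((0, 0), v) :=
    (an12 _).mul (analyticAt_snd.sub analyticAt_const)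
  exact (h2.mul (hR.comp_of_eq h3 (by simp))).mul ((snc_an _).comp_of_eq h5 rfl)

theorem kI_axis (v : ℂ) : kI N R (0, 0) v = R 0 := by
  simp [kI, snc_zero]

theorem rI_an (A : RootA) (hR : AnalyticAt ℂ R 0) (h0 : R 0 ≠ 0) :
    AnalyticAt ℂ (rI N R) (0, 0) :=
  (A (kI N R) (0, 0) (R 0) h0 (fun v _ => kI_an hR v) (fun v _ => kI_axis v)).1

theorem rI_zero (A : RootA) (hR : AnalyticAt ℂ R 0) (h0 : R 0 ≠ 0) : rI N R (0, 0) = 2 :=
  (A (kI N R) (0, 0) (R 0) h0 (fun v _ => kI_an hR v) (fun v _ => kI_axis v)).2.1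

theorem rI_spec (A : RootA) (hR : AnalyticAt ℂ R 0) (h0 : R 0 ≠ 0) :
    ∀ᶠ p in 𝓝 ((0, 0) : ℂ × ℂ), rI N R p ∈ ball (2 : ℂ) (1 / 4) ∧
      Kint (kI N R p) (rI N R p) = 0 := by
  filter_upwards [(A (kI N R) (0, 0) (R 0) h0 (fun v _ => kI_an hR v)
    (fun v _ => kI_axis v)).2.2] with p hp
  exact ⟨hp.1, hp.2.1⟩

/-- the integrand of the chord equation at the rotated point -/
theorem kerI_an (hR : AnalyticAt ℂ R 0) (a s : ℂ) :
    AnalyticAt ℂ (fun z : ((ℂ × ℂ) × ℂ) × ℂ =>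
      z.1.2 * (kI N R (a * z.1.1.1, z.1.1.2) (z.2 * z.1.2) * (z.2 * z.1.2 - 1)))
      (((0, 0), 2), s) := by
  have g4 : AnalyticAt ℂ (fun z : ((ℂ × ℂ) × ℂ) × ℂ => ((a * z.1.1.1, z.1.1.2) : ℂ × ℂ))
      (((0, 0), 2), s) := (analyticAt_const.mul (z111 _)).prod (z112 _)
  have g5 := cmp (fun q : (ℂ × ℂ) × ℂ => kI N R q.1 q.2)
    (fun z : ((ℂ × ℂ) × ℂ) × ℂ => (((a * z.1.1.1, z.1.1.2) : ℂ × ℂ), z.2 * z.1.2))
    (x := (((0, 0), 2), s)) (kI_an (N := N) hR (s * 2)) (g4.prod (z212 _)) (by simp)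
  exact (z12 _).mul (g5.mul ((z212 _).sub analyticAt_const))

/-- the chord equation -/
noncomputable def PsI (N : ℕ) (R : ℂ → ℂ) (q : (ℂ × ℂ) × ℂ) : ℂ := Kint (kI N R q.1) q.2

theorem PsI_an (hR : AnalyticAt ℂ R 0) : AnalyticAt ℂ (PsI N R) ((0, 0), 2) := by
  have h := analyticAt_unitInt (G := fun z : ((ℂ × ℂ) × ℂ) × ℂ =>
    z.1.2 * (kI N R (1 * z.1.1.1, z.1.1.2) (z.2 * z.1.2) * (z.2 * z.1.2 - 1)))
    (x₀ := ((0, 0), 2)) fun s _ => kerI_an hR 1 s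
  have h2 : PsI N R = fun q : (ℂ × ℂ) × ℂ => ∫ s in (0 : ℝ)..1,
      q.2 * (kI N R (1 * q.1.1, q.1.2) (s * q.2) * (s * q.2 - 1)) := by
    funext q
    simp only [PsI, Kint, one_mul]
  rw [h2]
  exact h

/-! ## the axis `ξ = 0` -/

theorem Jq_deriv {θ : ℂ} (h4 : 4 + 2 * θ ≠ 0) (h2 : 2 + 2 * θ ≠ 0) (y x : ℂ) :
    HasDerivAt (fun x => Jq θ y x) (y * (exp ((3 + 2 * θ) * (I * (y * x))) * sin (y * (x - 1)))) x := by
  have e1 : ∀ a : ℂ, HasDerivAt (fun x : ℂ => exp (a * (I * (y * x))))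
      (exp (a * (I * (y * x))) * (a * (I * (y * 1)))) x := fun a =>
    ((((hasDerivAt_id x).const_mul y).const_mul I).const_mul a).cexp
  have e2 := ((((e1 (4 + 2 * θ)).sub_const 1).const_mul (exp (-(I * y)))).div_const (4 + 2 * θ)).sub
    ((((e1 (2 + 2 * θ)).sub_const 1).const_mul (exp (I * y))).div_const (2 + 2 * θ))
  have e3 := e2.const_mul (-(1 / 2))
  refine (HasDerivAt.congr_deriv e3 ?_)
  have g1 : sin (y * (x - 1)) = (exp (-(I * (y * (x - 1)))) - exp (I * (y * (x - 1)))) * I / 2 := by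
    rw [Complex.sin]
    congr 2
    rw [show -(y * (x - 1)) * I = -(I * (y * (x - 1))) by ring,
      show y * (x - 1) * I = I * (y * (x - 1)) by ring]
  have g2 : exp ((3 + 2 * θ) * (I * (y * x))) * exp (-(I * (y * (x - 1)))) =
      exp (I * y) * exp ((2 + 2 * θ) * (I * (y * x))) := by
    rw [← Complex.exp_add, ← Complex.exp_add]
    congr 1
    ring
  have g3 : exp ((3 + 2 * θ) * (I * (y * x))) * exp (I * (y * (x - 1))) =
      exp (-(I * y)) * exp ((4 + 2 * θ) * (I * (y * x))) := by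
    rw [← Complex.exp_add, ← Complex.exp_add]
    congr 1
    ring
  rw [g1]
  have g4 : y * (exp ((3 + 2 * θ) * (I * (y * x))) *
      ((exp (-(I * (y * (x - 1)))) - exp (I * (y * (x - 1)))) * I / 2)) =
      y * I / 2 * (exp (I * y) * exp ((2 + 2 * θ) * (I * (y * x))) -
        exp (-(I * y)) * exp ((4 + 2 * θ) * (I * (y * x)))) := by
    rw [← g2, ← g3]
    ring
  rw [g4]
  have k1 : exp (-(I * y)) * (exp ((4 + 2 * θ) * (I * (y * x))) * ((4 + 2 * θ) * (I * (y * 1)))) /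
      (4 + 2 * θ) = exp (-(I * y)) * exp ((4 + 2 * θ) * (I * (y * x))) * (I * y) := by
    rw [div_eq_iff h4]; ring
  have k2 : exp (I * y) * (exp ((2 + 2 * θ) * (I * (y * x))) * ((2 + 2 * θ) * (I * (y * 1)))) /
      (2 + 2 * θ) = exp (I * y) * exp ((2 + 2 * θ) * (I * (y * x))) * (I * y) := by
    rw [div_eq_iff h2]; ring
  rw [k1, k2]
  ring

theorem Jq_zero (θ y : ℂ) : Jq θ y 0 = 0 := by
  simp [Jq]

theorem Jq_int {θ : ℂ} (h4 : 4 + 2 * θ ≠ 0) (h2 : 2 + 2 * θ ≠ 0) (y x : ℂ) :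
    ∫ s in (0 : ℝ)..1, x * (y * (exp ((3 + 2 * θ) * (I * (y * (s * x)))) * sin (y * (s * x - 1)))) =
      Jq θ y x := by
  have hd : ∀ s ∈ uIcc (0 : ℝ) 1, HasDerivAt (fun s : ℝ => Jq θ y ((s : ℂ) * x))
      (x * (y * (exp ((3 + 2 * θ) * (I * (y * (s * x)))) * sin (y * (s * x - 1))))) s := by
    intro s _
    have g1 : HasDerivAt (fun s : ℂ => s * x) x (s : ℂ) := by
      simpa using (hasDerivAt_id (s : ℂ)).mul_const x
    have g2 := (Jq_deriv h4 h2 y ((s : ℂ) * x)).comp (s : ℂ) g1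
    have g3 := g2.comp_ofReal
    rw [mul_comm] at g3
    exact g3
  have hc : ContinuousOn (fun s : ℝ => x * (y * (exp ((3 + 2 * θ) * (I * (y * (s * x)))) *
      sin (y * (s * x - 1))))) (uIcc 0 1) := by
    apply Continuous.continuousOn
    have : Continuous fun u : ℂ => sin u := Complex.continuous_sin
    fun_prop
  rw [intervalIntegral.integral_eq_sub_of_hasDerivAt hd hc.intervalIntegrable]
  simp [Jq_zero]

theorem four_ne (θ : ℝ) (h : 0 ≤ θ) : (4 : ℂ) + 2 * (θ : ℂ) ≠ 0 := by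
  have : ((4 + 2 * θ : ℝ) : ℂ) ≠ 0 := by exact_mod_cast (by positivity : 4 + 2 * θ ≠ 0)
  simpa using this

theorem two_ne (θ : ℝ) (h : 0 ≤ θ) : (2 : ℂ) + 2 * (θ : ℂ) ≠ 0 := by
  have : ((2 + 2 * θ : ℝ) : ℂ) ≠ 0 := by exact_mod_cast (by positivity : 2 + 2 * θ ≠ 0)
  simpa using this

theorem four_ne0 : (4 : ℂ) + 2 * 0 ≠ 0 := by norm_num
theorem two_ne0 : (2 : ℂ) + 2 * 0 ≠ 0 := by norm_num

theorem PsI_axis (y x : ℂ) : y ^ 2 * PsI N R ((0, y), x) = R 0 * Jq 0 y x := by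
  rw [← Jq_int four_ne0 two_ne0 y x, PsI, Kint, ← intervalIntegral.integral_const_mul,
    ← intervalIntegral.integral_const_mul]
  refine intervalIntegral.integral_congr fun s hs => ?_
  simp only [kI, zero_mul, mul_zero, add_zero]
  have := mul_snc (y * ((s : ℂ) * x - 1))
  rw [← this]
  ring

theorem PsI_deriv {y x : ℂ} (hy : y ≠ 0) :
    y * deriv (fun x => PsI N R ((0, y), x)) x = R 0 * (exp (3 * (I * (y * x))) * sin (y * (x - 1))) := by
  have h1 : (fun x => PsI N R ((0, y), x)) = fun x => R 0 * Jq 0 y x / y ^ 2 := by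
    funext x
    rw [← PsI_axis (N := N) (R := R) y x]
    field_simp
  rw [h1]
  have h2 := ((Jq_deriv four_ne0 two_ne0 y x).const_mul (R 0)).div_const (y ^ 2)
  rw [h2.deriv, mul_zero, add_zero]
  field_simp

/-- the root on the axis -/
theorem rI_root (A : RootA) (hR : AnalyticAt ℂ R 0) (h0 : R 0 ≠ 0) :
    ∀ᶠ y in 𝓝[≠] (0 : ℂ), Rt (fun y => rI N R (0, y)) y := by
  have h1 := ev_axis (rI_spec (N := N) A hR h0)
  have h2 : ∀ᶠ y in 𝓝 (0 : ℂ), ‖y‖ < 1 / 2 := by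
    filter_upwards [ball_mem_nhds (0 : ℂ) (show (0 : ℝ) < 1 / 2 by norm_num)] with y hy
    simpa [mem_ball_zero_iff] using hy
  have h3 : ∀ᶠ y in 𝓝[≠] (0 : ℂ), exp (2 * (I * (y * rI N R (0, y)))) - 1 ≠ 0 := by
    rw [eventually_nhdsWithin_iff]
    filter_upwards [h1, h2] with y g1 g2 g3
    intro h
    obtain ⟨n, hn⟩ := Complex.exp_eq_one_iff.1 (sub_eq_zero.1 h)
    have hb := g1.1
    rw [mem_ball, dist_eq_norm] at hb
    set X := rI N R (0, y) with hX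
    have hX1 : ‖X‖ < 9 / 4 := by
      have : X = (X - 2) + 2 := by ring
      rw [this]
      refine (norm_add_le _ _).trans_lt ?_
      have : ‖(2 : ℂ)‖ = 2 := by norm_num
      linarith
    have hX0 : X ≠ 0 := by
      intro h
      rw [h] at hb
      norm_num at hb
    have hyX : y * X = n * Real.pi := by
      have h3 : (2 * I : ℂ) ≠ 0 := by simp
      refine mul_left_cancel₀ h3 ?_
      linear_combination hn
    have hn0 : n ≠ 0 := by
      rintro rfl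
      rw [Int.cast_zero, zero_mul] at hyX
      exact (mul_ne_zero g3 hX0) hyX
    have h4 : ‖y * X‖ < 9 / 8 := by
      rw [norm_mul]
      calc ‖y‖ * ‖X‖ ≤ 1 / 2 * ‖X‖ := by gcongr
        _ < 9 / 8 := by linarith
    rw [hyX, norm_mul, norm_real, Real.norm_of_nonneg Real.pi_pos.le] at h4
    have h5 : (1 : ℝ) ≤ ‖(n : ℂ)‖ := by
      rw [Complex.norm_intCast]
      have : (1 : ℤ) ≤ |n| := Int.one_le_abs hn0
      exact_mod_cast this
    have h6 := Real.pi_gt_three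
    nlinarith
  filter_upwards [h1.filter_mono nhdsWithin_le_nhds, h2.filter_mono nhdsWithin_le_nhds, h3,
    self_mem_nhdsWithin] with y g1 g2 g3 g4
  refine ⟨?_, ?_, g2⟩
  · have := g1.1
    rwa [mem_ball, dist_eq_norm] at this
  · have hk := PsI_axis (N := N) (R := R) y (rI N R (0, y))
    have hk0 : PsI N R ((0, y), rI N R (0, y)) = 0 := g1.2
    rw [hk0, mul_zero] at hk
    have hJ := (mul_eq_zero.1 hk.symm).resolve_left h0
    set X := rI N R (0, y) with hX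
    set u := exp (I * (y * X)) with hu
    set a := exp (I * y) with ha
    have ha0 : a ≠ 0 := Complex.exp_ne_zero _
    have e2 : exp (2 * (I * (y * X))) = u ^ 2 := by
      rw [hu, ← Complex.exp_nat_mul]; push_cast; rfl
    have e4 : exp ((4 + 2 * 0) * (I * (y * X))) = u ^ 4 := by
      rw [hu, ← Complex.exp_nat_mul]; congr 1; push_cast; ring
    have e5 : exp ((2 + 2 * 0) * (I * (y * X))) = u ^ 2 := by
      rw [hu, ← Complex.exp_nat_mul]; congr 1; push_cast; ring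
    have e6 : exp (-(I * y)) = a⁻¹ := by rw [ha, Complex.exp_neg]
    rw [e2] at g3
    have e7 : exp (2 * I * (y * X)) = u ^ 2 := by rw [← e2]; congr 1; ring
    have e8 : exp (2 * I * y) = a ^ 2 := by
      rw [ha, ← Complex.exp_nat_mul]; congr 1; push_cast; ring
    simp only
    rw [e7, e8]
    rw [Jq, e4, e5, e6] at hJ
    have h9 : (u ^ 2 - 1) * (u ^ 2 - (2 * a ^ 2 - 1)) = 0 := by
      have h10 : (u ^ 2 - 1) * (u ^ 2 - (2 * a ^ 2 - 1)) =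
          (-8 * a) * (-(1 / 2) * (a⁻¹ * (u ^ 4 - 1) / (4 + 2 * 0) - a * (u ^ 2 - 1) / (2 + 2 * 0))) := by
        field_simp
        ring
      rw [h10, hJ, mul_zero]
    exact sub_eq_zero.1 ((mul_eq_zero.1 h9).resolve_left g3)

/-! ## the derivative of the kernel along the sheets -/

noncomputable def MI (N m : ℕ) (S : ℂ → ℂ) (q : (ℂ × ℂ) × ℂ) : ℂ :=
  ∫ s in (0 : ℝ)..1, q.2 * (exp (3 * (I * (q.1.2 * (s * q.2)))) *
    (exp (I * (q.1.2 * (s * q.2)) / N) ^ m * S (q.1.1 * exp (I * (q.1.2 * (s * q.2)) / N))) *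
      snc (q.1.2 * (s * q.2 - 1)) * (s * q.2 - 1))

theorem auxI_an (N : ℕ) (s : ℂ) : AnalyticAt ℂ (fun z : ((ℂ × ℂ) × ℂ) × ℂ =>
    exp (I * (z.1.1.2 * (z.2 * z.1.2)) / N)) (((0, 0), 2), s) :=
  ((analyticAt_const.mul ((z112 _).mul (z212 _))).div_const).cexp

theorem auxI_an2 (N : ℕ) (s : ℂ) : AnalyticAt ℂ (fun z : ((ℂ × ℂ) × ℂ) × ℂ =>
    z.1.1.1 * exp (I * (z.1.1.2 * (z.2 * z.1.2)) / N)) (((0, 0), 2), s) :=
  (z111 _).mul (auxI_an N s)

theorem MI_an (hS : AnalyticAt ℂ S 0) : AnalyticAt ℂ (MI N m S) ((0, 0), 2) := by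
  refine analyticAt_unitInt (G := fun z : ((ℂ × ℂ) × ℂ) × ℂ =>
    z.1.2 * (exp (3 * (I * (z.1.1.2 * (z.2 * z.1.2)))) *
    (exp (I * (z.1.1.2 * (z.2 * z.1.2)) / N) ^ m *
      S (z.1.1.1 * exp (I * (z.1.1.2 * (z.2 * z.1.2)) / N))) *
      snc (z.1.1.2 * (z.2 * z.1.2 - 1)) * (z.2 * z.1.2 - 1))) fun s _ => ?_
  have h5 := cmp S _ (x := (((0, 0), 2), s)) hS (auxI_an2 N s) (by simp)
  have h6 := cmp snc (fun z : ((ℂ × ℂ) × ℂ) × ℂ => z.1.1.2 * (z.2 * z.1.2 - 1))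
    (x := (((0, 0), 2), s)) (snc_an _) ((z112 _).mul ((z212 _).sub analyticAt_const)) rfl
  have h7 : AnalyticAt ℂ (fun z : ((ℂ × ℂ) × ℂ) × ℂ => exp (3 * (I * (z.1.1.2 * (z.2 * z.1.2)))))
      (((0, 0), 2), s) :=
    (analyticAt_const.mul (analyticAt_const.mul ((z112 _).mul (z212 _)))).cexp
  exact (z12 _).mul (((h7.mul (((auxI_an N s).pow m).mul h5)).mul h6).mul
    ((z212 _).sub analyticAt_const))

theorem MI_axis {θ : ℝ} (hθ : 0 ≤ θ) (hm : 2 * (θ : ℂ) = m / N) (y x : ℂ) :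
    y ^ 2 * MI N m S ((0, y), x) = S 0 * Jq θ y x := by
  rw [← Jq_int (four_ne θ hθ) (two_ne θ hθ) y x, MI, ← intervalIntegral.integral_const_mul,
    ← intervalIntegral.integral_const_mul]
  refine intervalIntegral.integral_congr fun s hs => ?_
  simp only [zero_mul]
  have := mul_snc (y * ((s : ℂ) * x - 1))
  have h2 : exp (3 * (I * (y * (s * x)))) * exp (I * (y * (s * x)) / N) ^ m =
      exp ((3 + 2 * (θ : ℂ)) * (I * (y * (s * x)))) := by
    rw [← Complex.exp_nat_mul, ← Complex.exp_add, hm]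
    congr 1
    ring
  rw [← this, ← h2]
  ring

theorem kintI_sheet {ω : ℂ} (hR : AnalyticAt ℂ R 0)
    (hS : AnalyticAt ℂ S 0) (hRS : ∀ᶠ ξ in 𝓝 (0 : ℂ), R (ω * ξ) - R ξ = ξ ^ m * S ξ) :
    ∀ᶠ q in 𝓝 (((0, 0), 2) : (ℂ × ℂ) × ℂ),
      PsI N R ((ω * q.1.1, q.1.2), q.2) - PsI N R q = q.1.1 ^ m * MI N m S q := by
  have hc1 : ∀ s ∈ Icc (0 : ℝ) 1, ∀ᶠ z in 𝓝 (((((0, 0), 2) : (ℂ × ℂ) × ℂ), s) : ((ℂ × ℂ) × ℂ) × ℝ),
      (R (ω * (z.1.1.1 * exp (I * (z.1.1.2 * (z.2 * z.1.2)) / N))) -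
        R (z.1.1.1 * exp (I * (z.1.1.2 * (z.2 * z.1.2)) / N)) =
        (z.1.1.1 * exp (I * (z.1.1.2 * (z.2 * z.1.2)) / N)) ^ m *
          S (z.1.1.1 * exp (I * (z.1.1.2 * (z.2 * z.1.2)) / N))) ∧
      ContinuousAt (fun s : ℝ => z.1.2 * (kI N R z.1.1 (s * z.1.2) * (s * z.1.2 - 1))) z.2 ∧
      ContinuousAt (fun s : ℝ => z.1.2 * (kI N R (ω * z.1.1.1, z.1.1.2) (s * z.1.2) *
        (s * z.1.2 - 1))) z.2 := by
    intro s _
    have hcs : Tendsto (fun z : ((ℂ × ℂ) × ℂ) × ℝ => ((z.1, (z.2 : ℂ)) : ((ℂ × ℂ) × ℂ) × ℂ))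
        (𝓝 (((0, 0), 2), s)) (𝓝 (((0, 0), 2), (s : ℂ))) := by
      have : Continuous (fun z : ((ℂ × ℂ) × ℂ) × ℝ => ((z.1, (z.2 : ℂ)) : ((ℂ × ℂ) × ℂ) × ℂ)) := by
        fun_prop
      exact this.tendsto _
    have h1 : Tendsto (fun z : ((ℂ × ℂ) × ℂ) × ℂ =>
        z.1.1.1 * exp (I * (z.1.1.2 * (z.2 * z.1.2)) / N)) (𝓝 (((0, 0), 2), (s : ℂ)))
        (𝓝 0) := by
      have h3 := (auxI_an2 N (s : ℂ)).continuousAt.tendsto
      refine h3.trans (le_of_eq ?_)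
      simp
    have hker : ∀ (a : ℂ), ∀ᶠ z in 𝓝 ((((0, 0), 2), (s : ℂ)) : ((ℂ × ℂ) × ℂ) × ℂ),
        AnalyticAt ℂ (fun z : ((ℂ × ℂ) × ℂ) × ℂ =>
          z.1.2 * (kI N R (a * z.1.1.1, z.1.1.2) (z.2 * z.1.2) * (z.2 * z.1.2 - 1))) z :=
      fun a => (kerI_an hR a s).eventually_analyticAt
    have hsl : ∀ (a : ℂ) (z : ((ℂ × ℂ) × ℂ) × ℝ), AnalyticAt ℂ (fun z : ((ℂ × ℂ) × ℂ) × ℂ =>
          z.1.2 * (kI N R (a * z.1.1.1, z.1.1.2) (z.2 * z.1.2) * (z.2 * z.1.2 - 1)))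
          (z.1, (z.2 : ℂ)) → ContinuousAt (fun s : ℝ => z.1.2 *
            (kI N R (a * z.1.1.1, z.1.1.2) (s * z.1.2) * (s * z.1.2 - 1))) z.2 := by
      intro a z hz
      have g1 : ContinuousAt (fun s : ℝ => ((z.1, (s : ℂ)) : ((ℂ × ℂ) × ℂ) × ℂ)) z.2 := by
        fun_prop
      exact ContinuousAt.comp (f := fun s : ℝ => ((z.1, (s : ℂ)) : ((ℂ × ℂ) × ℂ) × ℂ))
        hz.continuousAt g1
    filter_upwards [hcs.eventually (h1.eventually hRS), hcs.eventually (hker 1),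
      hcs.eventually (hker ω)] with z g1 g2 g3
    refine ⟨g1, ?_, hsl ω z g3⟩
    have g4 := hsl 1 z g2
    have g5 : ((1 * z.1.1.1, z.1.1.2) : ℂ × ℂ) = z.1.1 := by
      rw [one_mul]
    rw [g5] at g4
    exact g4
  have h2 := isCompact_Icc.eventually_forall_of_forall_eventually (X := (ℂ × ℂ) × ℂ)
    (x₀ := ((0, 0), 2)) (K := Icc (0 : ℝ) 1)
    (P := fun q s => (R (ω * (q.1.1 * exp (I * (q.1.2 * (s * q.2)) / N))) -
        R (q.1.1 * exp (I * (q.1.2 * (s * q.2)) / N)) =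
        (q.1.1 * exp (I * (q.1.2 * (s * q.2)) / N)) ^ m *
          S (q.1.1 * exp (I * (q.1.2 * (s * q.2)) / N))) ∧
      ContinuousAt (fun s : ℝ => q.2 * (kI N R q.1 (s * q.2) * (s * q.2 - 1))) s ∧
      ContinuousAt (fun s : ℝ => q.2 * (kI N R (ω * q.1.1, q.1.2) (s * q.2) *
        (s * q.2 - 1))) s) hc1
  filter_upwards [h2] with q hq
  have i1 : IntervalIntegrable (fun s : ℝ => q.2 * (kI N R q.1 (s * q.2) * (s * q.2 - 1)))
      MeasureTheory.volume 0 1 := by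
    apply ContinuousOn.intervalIntegrable
    intro s hs
    rw [uIcc_of_le zero_le_one] at hs
    exact (hq s hs).2.1.continuousWithinAt
  have i2 : IntervalIntegrable (fun s : ℝ => q.2 * (kI N R (ω * q.1.1, q.1.2) (s * q.2) *
      (s * q.2 - 1))) MeasureTheory.volume 0 1 := by
    apply ContinuousOn.intervalIntegrable
    intro s hs
    rw [uIcc_of_le zero_le_one] at hs
    exact (hq s hs).2.2.continuousWithinAt
  simp only [PsI, Kint, MI]
  rw [← intervalIntegral.integral_sub i2 i1, ← intervalIntegral.integral_const_mul]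
  refine intervalIntegral.integral_congr fun s hs => ?_
  rw [uIcc_of_le zero_le_one] at hs
  have g1 := (hq s hs).1
  simp only [kI]
  rw [mul_assoc ω q.1.1]
  rw [mul_pow] at g1
  linear_combination (q.2 * exp (3 * (I * (q.1.2 * (s * q.2)))) *
    snc (q.1.2 * (s * q.2 - 1)) * (s * q.2 - 1)) * g1

end Vale.Agent.P097.H772
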