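import Vale.Agent.P097.H772.Lin1

/-! # P097 / Case I: the linearised law at an isotropic end of exponent `3`, part 2.
Owner: helper772 (model: helper357's L0c). -/

set_option linter.all false

open Complex Metric Filter Topology Set

namespace Vale.Agent.P097.H772

open Vale.Agent.P097.NZ Vale.Agent.P097.Alg Vale.Agent.P097.H357 Vale.Agent.P097.H328

variable {N m : ℕ} {R S : ℂ → ℂ} {Lam : ℂ × ℂ → ℂ}

/-- the divided difference on the diagonal -/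
theorem quot_diag {E : Type*} [NormedAddCommGroup E] [NormedSpace ℂ E]
    {G : E × ℂ → ℂ} {a : E} {c : ℂ} {A : E × (ℂ × ℂ) → ℂ} (hA : AnalyticAt ℂ A (a, (c, c)))
    (h : ∀ᶠ q in 𝓝 ((a, (c, c)) : E × (ℂ × ℂ)),
        G (q.1, q.2.2) - G (q.1, q.2.1) = (q.2.2 - q.2.1) * A q) :
    ∀ᶠ q in 𝓝 ((a, c) : E × ℂ), A (q.1, (q.2, q.2)) = deriv (fun x => G (q.1, x)) q.2 := by
  have hc : Tendsto (fun q : E × ℂ => ((q.1, (q.2, q.2)) : E × (ℂ × ℂ))) (𝓝 (a, c))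
      (𝓝 (a, (c, c))) := by
    have : Continuous (fun q : E × ℂ => ((q.1, (q.2, q.2)) : E × (ℂ × ℂ))) := by fun_prop
    exact this.tendsto (a, c)
  filter_upwards [hc.eventually ((eventually_eventually_nhds.2 h).and hA.eventually_analyticAt)]
    with q hq
  have hl : Tendsto (fun x : ℂ => ((q.1, (q.2, x)) : E × (ℂ × ℂ))) (𝓝 q.2)
      (𝓝 (q.1, (q.2, q.2))) := by
    have : Continuous (fun x : ℂ => ((q.1, (q.2, x)) : E × (ℂ × ℂ))) := by fun_prop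
    exact this.tendsto q.2
  have h1 := hl.eventually hq.1
  have h2 : HasDerivAt (fun x => G (q.1, x)) (A (q.1, (q.2, q.2))) q.2 := by
    rw [hasDerivAt_iff_tendsto_slope]
    have h3 : Tendsto (fun x : ℂ => A (q.1, (q.2, x))) (𝓝[≠] q.2) (𝓝 (A (q.1, (q.2, q.2)))) :=
      (hq.2.continuousAt.tendsto.comp hl).mono_left nhdsWithin_le_nhds
    refine h3.congr' ?_
    filter_upwards [h1.filter_mono nhdsWithin_le_nhds, self_mem_nhdsWithin] with x hx hx0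
    have h4 : x - q.2 ≠ 0 := sub_ne_zero.2 hx0
    rw [slope_def_field, eq_div_iff h4, hx]
    ring
  exact h2.deriv.symm

/-- the law as a function of the root -/
noncomputable def FI (N : ℕ) (Lam : ℂ × ℂ → ℂ) (q : (ℂ × ℂ) × ℂ) : ℂ :=
  exp (3 * (I * (q.1.2 * q.2))) *
    Lam (q.1.1 * exp (I * (q.1.2 * q.2) / N), q.1.2 * (q.2 - 1))

theorem shI_an (N : ℕ) (x : ℂ) : AnalyticAt ℂ (fun q : (ℂ × ℂ) × ℂ =>
    ((q.1.1 * exp (I * (q.1.2 * q.2) / N), q.1.2 * (q.2 - 1)) : ℂ × ℂ)) ((0, 0), x) := by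
  have h1 : AnalyticAt ℂ (fun q : (ℂ × ℂ) × ℂ => q.1.2 * q.2) ((0, 0), x) :=
    (q12 _).mul analyticAt_snd
  refine AnalyticAt.prod ((q11 _).mul ((analyticAt_const.mul h1).div_const).cexp) ?_
  exact (q12 _).mul (analyticAt_snd.sub analyticAt_const)

theorem e3_an (x : ℂ) : AnalyticAt ℂ (fun q : (ℂ × ℂ) × ℂ => exp (3 * (I * (q.1.2 * q.2))))
    ((0, 0), x) :=
  (analyticAt_const.mul (analyticAt_const.mul ((q12 _).mul analyticAt_snd))).cexp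

theorem eN_an (N : ℕ) (x : ℂ) : AnalyticAt ℂ (fun q : (ℂ × ℂ) × ℂ => exp (I * (q.1.2 * q.2) / N))
    ((0, 0), x) :=
  ((analyticAt_const.mul ((q12 _).mul analyticAt_snd)).div_const).cexp

theorem FI_an (hL : AnalyticAt ℂ Lam (0, 0)) : AnalyticAt ℂ (FI N Lam) ((0, 0), 2) := by
  have h1 := cmp Lam _ (x := ((0, 0), 2)) hL (shI_an N 2) (by simp)
  exact (e3_an 2).mul h1

theorem QSI_an {Q : ℂ × ℂ → ℂ} (hQ : AnalyticAt ℂ Q (0, 0)) : AnalyticAt ℂ (fun q : (ℂ × ℂ) × ℂ =>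
    exp (3 * (I * (q.1.2 * q.2))) * (exp (I * (q.1.2 * q.2) / N) ^ m *
      Q (q.1.1 * exp (I * (q.1.2 * q.2) / N), q.1.2 * (q.2 - 1)))) ((0, 0), 2) := by
  have h1 := cmp Q _ (x := ((0, 0), 2)) hQ (shI_an N 2) (by simp)
  exact (e3_an 2).mul (((eN_an N 2).pow m).mul h1)

theorem FI_sheet {ω : ℂ} {Q : ℂ × ℂ → ℂ}
    (hQ : ∀ᶠ p in 𝓝 ((0, 0) : ℂ × ℂ), Lam (ω * p.1, p.2) - Lam p = p.1 ^ m * Q p) :
    ∀ᶠ q in 𝓝 (((0, 0), 2) : (ℂ × ℂ) × ℂ),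
      FI N Lam ((ω * q.1.1, q.1.2), q.2) - FI N Lam q = q.1.1 ^ m *
        (exp (3 * (I * (q.1.2 * q.2))) * (exp (I * (q.1.2 * q.2) / N) ^ m *
      Q (q.1.1 * exp (I * (q.1.2 * q.2) / N), q.1.2 * (q.2 - 1)))) := by
  have h1 : Tendsto (fun q : (ℂ × ℂ) × ℂ => ((q.1.1 * exp (I * (q.1.2 * q.2) / N),
      q.1.2 * (q.2 - 1)) : ℂ × ℂ)) (𝓝 ((0, 0), 2)) (𝓝 (0, 0)) := by
    refine (shI_an N 2).continuousAt.tendsto.trans (le_of_eq ?_)
    simp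
  filter_upwards [h1.eventually hQ] with q hq
  simp only [FI]
  rw [mul_assoc ω q.1.1]
  rw [mul_pow] at hq
  linear_combination exp (3 * (I * (q.1.2 * q.2))) * hq

theorem FI_axis_deriv {c : ℂ} (h00 : ∀ᶠ y in 𝓝 (0 : ℂ), Lam (0, y) = c * sin y ^ 3) :
    ∀ᶠ q in 𝓝 ((0, 2) : ℂ × ℂ), deriv (fun x => FI N Lam ((0, q.1), x)) q.2 =
      3 * c * q.1 * (exp (3 * (I * (q.1 * q.2))) * exp (I * (q.1 * (q.2 - 1)))) *
        sin (q.1 * (q.2 - 1)) ^ 2 := by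
  have h1 : Tendsto (fun q : ℂ × ℂ => q.1 * (q.2 - 1)) (𝓝 (0, 2)) (𝓝 0) := by
    have h2 : ContinuousAt (fun q : ℂ × ℂ => q.1 * (q.2 - 1)) (0, 2) := by fun_prop
    refine h2.tendsto.trans (le_of_eq ?_)
    simp
  have h3 := h1.eventually h00
  filter_upwards [eventually_eventually_nhds.2 h3] with q hq
  have h6 : Tendsto (fun x : ℂ => ((q.1, x) : ℂ × ℂ)) (𝓝 q.2) (𝓝 q) := by
    have : Continuous (fun x : ℂ => ((q.1, x) : ℂ × ℂ)) := by fun_prop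
    exact this.tendsto q.2
  have h7 : (fun x => FI N Lam ((0, q.1), x)) =ᶠ[𝓝 q.2]
      fun x => exp (3 * (I * (q.1 * x))) * (c * sin (q.1 * (x - 1)) ^ 3) := by
    filter_upwards [h6.eventually hq] with x hx
    simp only [FI, zero_mul]
    rw [hx]
  rw [h7.deriv_eq]
  have d1 : HasDerivAt (fun x : ℂ => exp (3 * (I * (q.1 * x))))
      (exp (3 * (I * (q.1 * q.2))) * (3 * (I * (q.1 * 1)))) q.2 :=
    ((((hasDerivAt_id q.2).const_mul q.1).const_mul I).const_mul 3).cexp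
  have d2 : HasDerivAt (fun x : ℂ => sin (q.1 * (x - 1)))
      (cos (q.1 * (q.2 - 1)) * (q.1 * 1)) q.2 :=
    (((hasDerivAt_id q.2).sub_const 1).const_mul q.1).csin
  have d3 := d1.mul ((d2.pow 3).const_mul c)
  have d4 : HasDerivAt (fun x : ℂ => exp (3 * (I * (q.1 * x))) * (c * sin (q.1 * (x - 1)) ^ 3)) _
    q.2 := d3
  rw [d4.deriv]
  have e1 : exp (I * (q.1 * (q.2 - 1))) = cos (q.1 * (q.2 - 1)) + sin (q.1 * (q.2 - 1)) * I := by
    rw [← Complex.exp_mul_I]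
    congr 1
    ring
  rw [e1]
  simp only [Pi.pow_apply]
  push_cast
  ring

/-- the linearised law -/
theorem linI (A : RootA) (hR : AnalyticAt ℂ R 0) (h0 : R 0 ≠ 0)
    (hL : AnalyticAt ℂ Lam (0, 0))
    (law : ∀ᶠ p in 𝓝 ((0, 0) : ℂ × ℂ), exp (3 * (I * (p.2 * rI N R p))) *
      Lam (p.1 * exp (I * (p.2 * rI N R p) / N), p.2 * (rI N R p - 1)) = Lam p)
    (h00 : ∀ᶠ y in 𝓝 (0 : ℂ), Lam (0, y) = R 0 * (2 / 3) * sin y ^ 3) {ω : ℂ}
    {Q : ℂ × ℂ → ℂ} (hQ : AnalyticAt ℂ Q (0, 0))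
    (hLQ : ∀ᶠ p in 𝓝 ((0, 0) : ℂ × ℂ), Lam (ω * p.1, p.2) - Lam p = p.1 ^ m * Q p)
    (hS : AnalyticAt ℂ S 0) (hRS : ∀ᶠ ξ in 𝓝 (0 : ℂ), R (ω * ξ) - R ξ = ξ ^ m * S ξ)
    {θ : ℝ} (hθ : 0 ≤ θ) (hθm : 2 * (θ : ℂ) = m / N) :
    ∀ᶠ y in 𝓝[≠] (0 : ℂ), exp ((3 + 2 * θ) * (I * (y * rI N R (0, y)))) *
      Q (0, y * (rI N R (0, y) - 1)) - Q (0, y) =
        S 0 * (2 * (Jq θ y (rI N R (0, y)) * (exp (I * (y * (rI N R (0, y) - 1))) *
          sin (y * (rI N R (0, y) - 1))))) := by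
  set X : ℂ × ℂ → ℂ := rI N R with hX
  set X' : ℂ × ℂ → ℂ := fun p => rI N R (ω * p.1, p.2) with hX'
  have hXan : AnalyticAt ℂ X (0, 0) := rI_an A hR h0
  have hX'an : AnalyticAt ℂ X' (0, 0) :=
    cmp (rI N R) (fun p : ℂ × ℂ => (ω * p.1, p.2)) (x := (0, 0)) (rI_an A hR h0) (rot_an ω)
      (by simp)
  have hX0 : X (0, 0) = 2 := rI_zero A hR h0
  have hX'X : ∀ y, X' (0, y) = X (0, y) := by
    intro y
    simp only [hX', hX, mul_zero]
  have hX'0 : X' (0, 0) = 2 := by rw [hX'X, hX0]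
  -- the chord equation
  obtain ⟨AP, hAPan, hAP, -⟩ := quot_x (PsI_an (N := N) hR)
  obtain ⟨AF, hAFan, hAF, -⟩ := quot_x (FI_an (N := N) hL)
  have hAPd := quot_diag hAPan hAP
  have hAFd := quot_diag hAFan hAF
  have hMt := kintI_sheet (N := N) (m := m) (ω := ω) hR hS hRS
  have hMtan := MI_an (N := N) (m := m) hS
  have t1 : Tendsto (fun p : ℂ × ℂ => ((p, X p) : (ℂ × ℂ) × ℂ)) (𝓝 (0, 0)) (𝓝 ((0, 0), 2)) := by
    have h := (analyticAt_id.prod hXan).continuousAt.tendsto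
    simp only [id, hX0] at h
    exact h
  have t2 : Tendsto (fun p : ℂ × ℂ => ((p, X' p) : (ℂ × ℂ) × ℂ)) (𝓝 (0, 0)) (𝓝 ((0, 0), 2)) := by
    have h := (analyticAt_id.prod hX'an).continuousAt.tendsto
    simp only [id, hX'0] at h
    exact h
  have a3 : AnalyticAt ℂ (fun p : ℂ × ℂ => (((ω * p.1, p.2), (X p, X' p)) : (ℂ × ℂ) × (ℂ × ℂ)))
      (0, 0) := (rot_an ω).prod (hXan.prod hX'an)
  have e3 : (((ω * ((0, 0) : ℂ × ℂ).1, ((0, 0) : ℂ × ℂ).2), (X (0, 0), X' (0, 0))) :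
      (ℂ × ℂ) × (ℂ × ℂ)) = ((0, 0), (2, 2)) := by
    rw [hX0, hX'0, rot_zero]
  have t3 : Tendsto (fun p : ℂ × ℂ => (((ω * p.1, p.2), (X p, X' p)) : (ℂ × ℂ) × (ℂ × ℂ)))
      (𝓝 (0, 0)) (𝓝 ((0, 0), (2, 2))) := by
    have h := a3.continuousAt.tendsto
    rw [e3] at h
    exact h
  have a4 : AnalyticAt ℂ (fun p : ℂ × ℂ => ((p, (X p, X' p)) : (ℂ × ℂ) × (ℂ × ℂ)))
      (0, 0) := analyticAt_id.prod (hXan.prod hX'an)
  have e4 : (((0, 0), (X (0, 0), X' (0, 0))) :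
      (ℂ × ℂ) × (ℂ × ℂ)) = ((0, 0), (2, 2)) := by
    rw [hX0, hX'0]
  have t4 : Tendsto (fun p : ℂ × ℂ => ((p, (X p, X' p)) : (ℂ × ℂ) × (ℂ × ℂ)))
      (𝓝 (0, 0)) (𝓝 ((0, 0), (2, 2))) := by
    have h := a4.continuousAt.tendsto
    rw [e4] at h
    exact h
  set aP : ℂ × ℂ → ℂ := fun p => AP ((ω * p.1, p.2), (X p, X' p)) with haP
  set aF : ℂ × ℂ → ℂ := fun p => AF (p, (X p, X' p)) with haF
  set M : ℂ × ℂ → ℂ := fun p => MI N m S (p, X p) with hM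
  set QQ : ℂ × ℂ → ℂ := fun p => exp (3 * (I * (p.2 * X' p))) *
    (exp (I * (p.2 * X' p) / N) ^ m * Q (p.1 * exp (I * (p.2 * X' p) / N),
      p.2 * (X' p - 1))) with hQQ
  have haPan : AnalyticAt ℂ aP (0, 0) := cmp AP _ (x := (0, 0)) hAPan a3 e3
  have haFan : AnalyticAt ℂ aF (0, 0) := cmp AF _ (x := (0, 0)) hAFan a4 e4
  have hMan : AnalyticAt ℂ M (0, 0) :=
    cmp (MI N m S) (fun p : ℂ × ℂ => (p, X p)) (x := (0, 0)) hMtan (analyticAt_id.prod hXan)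
      (by rw [hX0])
  have hQQan : AnalyticAt ℂ QQ (0, 0) :=
    cmp _ (fun p : ℂ × ℂ => (p, X' p)) (x := (0, 0)) (QSI_an (N := N) (m := m) hQ)
      (analyticAt_id.prod hX'an) (by rw [hX'0])
  -- the axis
  have tax : Tendsto (fun y : ℂ => (((0, y), X (0, y)) : (ℂ × ℂ) × ℂ)) (𝓝 0) (𝓝 ((0, 0), 2)) := by
    have hc : Tendsto (fun y : ℂ => ((0, y) : ℂ × ℂ)) (𝓝 0) (𝓝 (0, 0)) := by
      have : Continuous (fun y : ℂ => ((0, y) : ℂ × ℂ)) := by fun_prop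
      exact this.tendsto 0
    exact t1.comp hc
  have tax2 : Tendsto (fun y : ℂ => ((y, X (0, y)) : ℂ × ℂ)) (𝓝 0) (𝓝 (0, 2)) := by
    have hc : Continuous (fun q : (ℂ × ℂ) × ℂ => ((q.1.2, q.2) : ℂ × ℂ)) := by fun_prop
    exact (hc.tendsto ((0, 0), 2)).comp tax
  have haP0 : ∀ᶠ y in 𝓝 (0 : ℂ), aP (0, y) = deriv (fun x => PsI N R ((0, y), x)) (X (0, y)) := by
    filter_upwards [tax.eventually hAPd] with y hy
    simp only [haP, mul_zero, hX'X]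
    exact hy
  have haF0 : ∀ᶠ y in 𝓝 (0 : ℂ), aF (0, y) = 3 * (R 0 * (2 / 3)) * y *
      (exp (3 * (I * (y * X (0, y)))) * exp (I * (y * (X (0, y) - 1)))) *
        sin (y * (X (0, y) - 1)) ^ 2 := by
    filter_upwards [tax.eventually hAFd, tax2.eventually (FI_axis_deriv (N := N) h00)] with y hy hy2
    simp only [haF, hX'X]
    rw [hy]
    exact hy2
  -- difference of the roots
  have hdiff : ∀ᶠ p in 𝓝 ((0, 0) : ℂ × ℂ), (X' p - X p) * aP p = -(p.1 ^ m * M p) := by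
    have r1 := rI_spec (N := N) A hR h0
    have r2 := (rot_tendsto ω).eventually r1
    filter_upwards [r1, r2, t3.eventually hAP, t1.eventually hMt] with p g1 g2 g3 g4
    have g5 : PsI N R ((ω * p.1, p.2), X' p) = 0 := g2.2
    have g6 : PsI N R (p, X p) = 0 := g1.2
    rw [g5] at g3
    rw [g6] at g4
    simp only [haP, hM]
    linear_combination -g3 - g4
  -- the law
  have hlaw : ∀ᶠ p in 𝓝 ((0, 0) : ℂ × ℂ), FI N Lam (p, X p) = Lam p := law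
  have hlaw' := (rot_tendsto ω).eventually hlaw
  have hmain : ∀ᶠ p in 𝓝 ((0, 0) : ℂ × ℂ),
      p.1 ^ m * (Q p * aP p - QQ p * aP p + M p * aF p) = 0 := by
    filter_upwards [hdiff, hlaw, hlaw', hLQ, t4.eventually hAF,
      t2.eventually (FI_sheet (N := N) hLQ)] with p g1 g2 g3 g4 g5 g6
    have g7 : FI N Lam ((ω * p.1, p.2), X' p) = Lam (ω * p.1, p.2) := g3
    rw [g7] at g6
    rw [g2] at g5
    simp only [hQQ, haF] at *
    linear_combination aP p * g6 - aP p * g4 + aP p * g5 + AF (p, X p, X' p) * g1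
  have hfin := ev_axis (cancel_pow
    (((hQ.mul haPan).sub (hQQan.mul haPan)).add (hMan.mul haFan)) m hmain)
  have hsin : ∀ᶠ y in 𝓝[≠] (0 : ℂ), sin (y * (X (0, y) - 1)) ≠ 0 := by
    have h1 : Tendsto (fun y : ℂ => y * (X (0, y) - 1)) (𝓝 0) (𝓝 0) := by
      have h2 : Continuous (fun q : ℂ × ℂ => q.1 * (q.2 - 1)) := by fun_prop
      have h3 := (h2.tendsto (0, 2)).comp tax2
      rw [zero_mul] at h3
      exact h3
    have h4 : ∀ᶠ y in 𝓝 (0 : ℂ), X (0, y) - 1 ≠ 0 := by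
      have h2 : Continuous (fun q : ℂ × ℂ => q.2 - 1) := by fun_prop
      have h3 := (h2.tendsto (0, 2)).comp tax2
      exact h3.eventually_ne (by norm_num)
    have h5 : ∀ᶠ z in 𝓝 (0 : ℂ), z ≠ 0 → sin z ≠ 0 := by
      have h6 : ∀ᶠ z in 𝓝 (0 : ℂ), snc z ≠ 0 :=
        (snc_an 0).continuousAt.eventually_ne (by rw [snc_zero]; exact one_ne_zero)
      filter_upwards [h6] with z hz hz0
      rw [← mul_snc]
      exact mul_ne_zero hz0 hz
    filter_upwards [(h1.eventually h5).filter_mono nhdsWithin_le_nhds,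
      h4.filter_mono nhdsWithin_le_nhds, self_mem_nhdsWithin] with y g1 g2 g3
    exact g1 (mul_ne_zero g3 g2)
  filter_upwards [hfin.filter_mono nhdsWithin_le_nhds, haP0.filter_mono nhdsWithin_le_nhds,
    haF0.filter_mono nhdsWithin_le_nhds, hsin, self_mem_nhdsWithin] with y g1 g2 g3 g4 g0
  have hy : y ≠ 0 := g0
  have g5 : y ^ 2 * M (0, y) = S 0 * Jq θ y (X (0, y)) := MI_axis hθ hθm y (X (0, y))
  have g6 : QQ (0, y) = exp ((3 + 2 * θ) * (I * (y * X (0, y)))) *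
      Q (0, y * (X (0, y) - 1)) := by
    simp only [hQQ, hX'X, zero_mul]
    rw [← mul_assoc]
    congr 1
    rw [← Complex.exp_nat_mul, ← Complex.exp_add, hθm]
    congr 1
    ring
  have g7 := PsI_deriv (N := N) (R := R) (x := X (0, y)) hy
  rw [← g2] at g7
  simp only [Pi.add_apply, Pi.sub_apply, Pi.mul_apply] at g1
  rw [g3, g6] at g1
  set E := exp (3 * (I * (y * X (0, y)))) with hE
  have hE0 : E ≠ 0 := Complex.exp_ne_zero _
  set sn := sin (y * (X (0, y) - 1)) with hsn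
  set W := exp (I * (y * (X (0, y) - 1))) with hW
  set J := Jq θ y (X (0, y)) with hJ
  set Q1 := exp ((3 + 2 * θ) * (I * (y * X (0, y)))) * Q (0, y * (X (0, y) - 1)) with hQ1
  have h1 : (R 0 * (E * sn)) * y * ((Q (0, y) - Q1) + S 0 * (2 * (J * (W * sn)))) = 0 := by
    linear_combination y ^ 2 * g1 - (Q (0, y) - Q1) * y * g7 -
      (3 * (R 0 * (2 / 3)) * y * (E * W) * sn ^ 2) * g5
  have h2 := (mul_eq_zero.1 h1).resolve_left
    (mul_ne_zero (mul_ne_zero h0 (mul_ne_zero hE0 g4)) hy)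
  linear_combination -h2

end Vale.Agent.P097.H772
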