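import Vale.Agent.P097.H772.Even

/-! # P097 / Case I: the isotropic coordinate is odd in the affine parameter, so the conic
invariant is even about an isotropic point.  Owner: helper772. -/

set_option linter.all false

open Complex Metric Filter Topology Set

namespace Vale.Agent.P097.H772

/-- an analytic cube root -/
theorem exists_cbrt {R : ℂ → ℂ} (hR : AnalyticAt ℂ R 0) (hR0 : R 0 ≠ 0) :
    ∃ S : ℂ → ℂ, AnalyticAt ℂ S 0 ∧ S 0 ≠ 0 ∧ ∀ᶠ z in 𝓝 (0 : ℂ), S z ^ 3 = R z := by
  have h1 : AnalyticAt ℂ (fun z => log (R z / R 0)) 0 :=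
    (hR.div analyticAt_const hR0).clog (by
      show R 0 / R 0 ∈ slitPlane
      rw [div_self hR0]
      exact one_mem_slitPlane)
  refine ⟨fun z => exp (1 / 3 * log (R z / R 0)) * exp (1 / 3 * log (R 0)), ?_, ?_, ?_⟩
  · exact ((analyticAt_const.mul h1).cexp).mul analyticAt_const
  · exact mul_ne_zero (Complex.exp_ne_zero _) (Complex.exp_ne_zero _)
  · filter_upwards [hR.continuousAt.eventually_ne hR0] with z hz
    have h2 : R z / R 0 ≠ 0 := div_ne_zero hz hR0
    rw [mul_pow, ← Complex.exp_nat_mul, ← Complex.exp_nat_mul]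
    have e1 : ((3 : ℕ) : ℂ) * (1 / 3 * log (R z / R 0)) = log (R z / R 0) := by push_cast; ring
    have e2 : ((3 : ℕ) : ℂ) * (1 / 3 * log (R 0)) = log (R 0) := by push_cast; ring
    rw [e1, e2, exp_log h2, exp_log hR0]
    field_simp

/-- two solutions of `R(F) F' ^ 3 = c` with the same value and derivative at `b` agree -/
theorem unique_sol {R F F₁ : ℂ → ℂ} {b c : ℂ} (hR : AnalyticAt ℂ R 0) (hR0 : R 0 ≠ 0)
    (hc : c ≠ 0) (hF : AnalyticAt ℂ F b) (hF₁ : AnalyticAt ℂ F₁ b) (h0 : F b = 0) (h1 : F₁ b = 0)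
    (hd : deriv F b = deriv F₁ b)
    (e : ∀ᶠ x in 𝓝 b, R (F x) * deriv F x ^ 3 = c)
    (e₁ : ∀ᶠ x in 𝓝 b, R (F₁ x) * deriv F₁ x ^ 3 = c) : ∀ᶠ x in 𝓝 b, F₁ x = F x := by
  obtain ⟨S, hS, hS0, hSR⟩ := exists_cbrt hR hR0
  -- a primitive of `S`
  obtain ⟨r, hr, hSr⟩ := Metric.eventually_nhds_iff_ball.1 hS.eventually_analyticAt
  obtain ⟨G, hG⟩ := DifferentiableOn.isExactOn_ball (f := S) (c := 0) (r := r)
    (fun z hz => (hSr z hz).differentiableAt.differentiableWithinAt)
  have hGan : AnalyticAt ℂ G 0 := by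
    have : DifferentiableOn ℂ G (ball 0 r) := fun z hz =>
      (hG z hz).differentiableAt.differentiableWithinAt
    exact this.analyticAt (isOpen_ball.mem_nhds (mem_ball_self hr))
  -- the derivative of `G ∘ F` is constant
  have key : ∀ P : ℂ → ℂ, AnalyticAt ℂ P b → P b = 0 →
      (∀ᶠ x in 𝓝 b, R (P x) * deriv P x ^ 3 = c) →
      ∀ᶠ x in 𝓝 b, G (P x) = G 0 + S 0 * deriv P b * (x - b) := by
    intro P hP hP0 he
    have hPt : Tendsto P (𝓝 b) (𝓝 0) := by
      have := hP.continuousAt.tendsto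
      rwa [hP0] at this
    have hSP : AnalyticAt ℂ (fun x => S (P x)) b := hS.comp_of_eq hP hP0
    have hQ : AnalyticAt ℂ (fun x => S (P x) * deriv P x) b := hSP.mul hP.deriv
    have hcube : ∀ᶠ x in 𝓝 b, (S (P x) * deriv P x) ^ 3 = c := by
      filter_upwards [hPt.eventually hSR, he] with x g1 g2
      rw [mul_pow, g1, g2]
    have hder : ∀ᶠ x in 𝓝 b, deriv (fun x => S (P x) * deriv P x) x = 0 := by
      filter_upwards [eventually_eventually_nhds.2 hcube, hQ.eventually_analyticAt, hcube]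
        with x g1 g2 g3
      have g4 : (fun x => (S (P x) * deriv P x) ^ 3) =ᶠ[𝓝 x] fun _ => c := g1
      have g5 := g4.deriv_eq
      rw [deriv_const] at g5
      have g6 : HasDerivAt (fun x => (S (P x) * deriv P x) ^ 3)
          ((3 : ℕ) * (S (P x) * deriv P x) ^ (3 - 1) * deriv (fun x => S (P x) * deriv P x) x) x :=
        g2.differentiableAt.hasDerivAt.pow 3
      rw [g6.deriv] at g5
      have g7 : S (P x) * deriv P x ≠ 0 := by
        intro h
        rw [h] at g3
        exact hc (by rw [← g3]; norm_num)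
      have g8 : ((3 : ℕ) : ℂ) * (S (P x) * deriv P x) ^ (3 - 1) ≠ 0 :=
        mul_ne_zero (by norm_num) (pow_ne_zero _ g7)
      exact (mul_eq_zero.1 g5).resolve_left g8
    obtain ⟨ε, hε, hE⟩ := Metric.eventually_nhds_iff_ball.1
      (hder.and (hQ.eventually_analyticAt.and ((hPt.eventually (ball_mem_nhds (0 : ℂ) hr)).and
        hP.eventually_analyticAt)))
    have hconst : ∀ x ∈ ball b ε, S (P x) * deriv P x = S 0 * deriv P b := by
      intro x hx
      have := isOpen_ball.is_const_of_deriv_eq_zero (isPreconnected_ball)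
        (f := fun x => S (P x) * deriv P x)
        (fun y hy => (hE y hy).2.1.differentiableAt.differentiableWithinAt)
        (fun y hy => (hE y hy).1) hx (mem_ball_self hε)
      simpa [hP0] using this
    have hG2 : ∀ x ∈ ball b ε, HasDerivAt (fun x => G (P x) - S 0 * deriv P b * (x - b)) 0 x := by
      intro x hx
      have g1 := (hG (P x) (hE x hx).2.2.1).comp x (hE x hx).2.2.2.differentiableAt.hasDerivAt
      have g2 : HasDerivAt (fun x : ℂ => S 0 * deriv P b * (x - b)) (S 0 * deriv P b * 1) x :=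
        ((hasDerivAt_id x).sub_const b).const_mul _
      have g3 := g1.sub g2
      rw [hconst x hx, mul_one, sub_self] at g3
      exact g3
    filter_upwards [ball_mem_nhds b hε] with x hx
    have := isOpen_ball.is_const_of_deriv_eq_zero (isPreconnected_ball)
      (f := fun x => G (P x) - S 0 * deriv P b * (x - b))
      (fun y hy => (hG2 y hy).differentiableAt.differentiableWithinAt)
      (fun y hy => (hG2 y hy).deriv) hx (mem_ball_self hε)
    simp only [sub_self, mul_zero, sub_zero, hP0] at this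
    linear_combination this
  have k1 := key F hF h0 e
  have k2 := key F₁ hF₁ h1 e₁
  -- local injectivity of `G`
  have hG0 : HasStrictDerivAt G (S 0) 0 := by
    have h2 := hGan.hasStrictDerivAt
    have h3 := (hG 0 (mem_ball_self hr)).deriv
    rwa [h3] at h2
  have hinj : ∃ U ∈ 𝓝 (0 : ℂ), InjOn G U := by
    have hG1 := hG0.hasStrictFDerivAt_equiv hS0
    refine ⟨(hG1.toOpenPartialHomeomorph G).source, ?_, ?_⟩
    · exact (hG1.toOpenPartialHomeomorph G).open_source.mem_nhds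
        hG1.mem_toOpenPartialHomeomorph_source
    · exact (hG1.toOpenPartialHomeomorph G).injOn
  obtain ⟨U, hU, hUi⟩ := hinj
  have tF : Tendsto F (𝓝 b) (𝓝 0) := by
    have := hF.continuousAt.tendsto
    rwa [h0] at this
  have tF₁ : Tendsto F₁ (𝓝 b) (𝓝 0) := by
    have := hF₁.continuousAt.tendsto
    rwa [h1] at this
  filter_upwards [k1, k2, tF.eventually hU, tF₁.eventually hU] with x g1 g2 g3 g4
  refine hUi g4 g3 ?_
  rw [g1, g2, hd]

/-- THE ISOTROPIC COORDINATE IS ODD -/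
theorem odd_of_even {R F : ℂ → ℂ} {b c : ℂ} (hR : AnalyticAt ℂ R 0) (hR0 : R 0 ≠ 0)
    (hev : ∀ᶠ z in 𝓝 (0 : ℂ), R (-z) = R z) (hc : c ≠ 0) (hF : AnalyticAt ℂ F b) (h0 : F b = 0)
    (e : ∀ᶠ x in 𝓝 b, R (F x) * deriv F x ^ 3 = c) : ∀ᶠ x in 𝓝 b, F (2 * b - x) = -F x := by
  have hrefl : AnalyticAt ℂ (fun x : ℂ => 2 * b - x) b := analyticAt_const.sub analyticAt_id
  have hb : 2 * b - b = b := by ring
  have ht : Tendsto (fun x : ℂ => 2 * b - x) (𝓝 b) (𝓝 b) := by
    have := hrefl.continuousAt.tendsto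
    rwa [hb] at this
  have hFr : AnalyticAt ℂ (fun x => F (2 * b - x)) b := hF.comp_of_eq hrefl hb
  have hF₁ : AnalyticAt ℂ (fun x => -F (2 * b - x)) b := hFr.neg
  have hder : ∀ᶠ x in 𝓝 b, deriv (fun x => -F (2 * b - x)) x = deriv F (2 * b - x) := by
    filter_upwards [ht.eventually hF.eventually_analyticAt] with x hx
    have g1 : HasDerivAt (fun x : ℂ => 2 * b - x) (-1) x := by
      simpa using (hasDerivAt_id x).const_sub (2 * b)
    have g2 := (hx.differentiableAt.hasDerivAt.comp x g1).neg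
    have g3 : HasDerivAt (fun x => -F (2 * b - x)) (-(deriv F (2 * b - x) * -1)) x := g2
    rw [g3.deriv]
    ring
  have e₁ : ∀ᶠ x in 𝓝 b, R (-F (2 * b - x)) * deriv (fun x => -F (2 * b - x)) x ^ 3 = c := by
    have tF : Tendsto F (𝓝 b) (𝓝 0) := by
      have := hF.continuousAt.tendsto
      rwa [h0] at this
    filter_upwards [hder, ht.eventually e, ht.eventually (tF.eventually hev)] with x g1 g2 g3
    rw [g1, g3, g2]
  have h2 := unique_sol hR hR0 hc hF hF₁ h0 (by simp [hb, h0]) (by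
    rw [hder.self_of_nhds, hb]) e e₁
  filter_upwards [h2] with x hx
  rw [← hx, neg_neg]

/-- the logarithmic derivative is odd -/
theorem logDeriv_odd {F : ℂ → ℂ} {b : ℂ} (hF : AnalyticAt ℂ F b)
    (h : ∀ᶠ x in 𝓝 b, F (2 * b - x) = -F x) :
    ∀ᶠ x in 𝓝 b, deriv F (2 * b - x) / F (2 * b - x) = -(deriv F x / F x) := by
  have ht : Tendsto (fun x : ℂ => 2 * b - x) (𝓝 b) (𝓝 b) := by
    have h1 : AnalyticAt ℂ (fun x : ℂ => 2 * b - x) b := analyticAt_const.sub analyticAt_id
    have := h1.continuousAt.tendsto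
    rwa [show 2 * b - b = b by ring] at this
  filter_upwards [eventually_eventually_nhds.2 h, ht.eventually hF.eventually_analyticAt, h]
    with x g1 g2 g3
  have g4 : (fun x => F (2 * b - x)) =ᶠ[𝓝 x] fun x => -F x := g1
  have g5 := g4.deriv_eq
  have g6 : HasDerivAt (fun x : ℂ => 2 * b - x) (-1) x := by
    simpa using (hasDerivAt_id x).const_sub (2 * b)
  have g7 : HasDerivAt (fun x => F (2 * b - x)) (deriv F (2 * b - x) * -1) x :=
    g2.differentiableAt.hasDerivAt.comp x g6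
  have g8 : deriv (fun x => -F x) x = -deriv F x := deriv.fun_neg
  rw [g7.deriv, g8] at g5
  have g9 : deriv F (2 * b - x) = deriv F x := by linear_combination -g5
  rw [g9, g3, div_neg]

/-- reflection of punctured neighbourhoods -/
theorem refl_punct (b : ℂ) : Tendsto (fun x : ℂ => 2 * b - x) (𝓝[≠] b) (𝓝[≠] b) := by
  rw [tendsto_nhdsWithin_iff]
  constructor
  · have h1 : ContinuousAt (fun x : ℂ => 2 * b - x) b := by fun_prop
    have := h1.tendsto
    rw [show 2 * b - b = b by ring] at this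
    exact this.mono_left nhdsWithin_le_nhds
  · filter_upwards [self_mem_nhdsWithin] with x hx h
    apply hx
    have h2 : 2 * b - x = b := h
    show x = b
    linear_combination -h2

theorem deriv_punct {f g : ℂ → ℂ} {b : ℂ} (h : ∀ᶠ x in 𝓝[≠] b, f x = g x) :
    ∀ᶠ x in 𝓝[≠] b, deriv f x = deriv g x := by
  rw [eventually_nhdsWithin_iff] at h ⊢
  filter_upwards [eventually_eventually_nhds.2 h] with x hx hxb
  refine Filter.EventuallyEq.deriv_eq ?_
  filter_upwards [hx, isOpen_ne.mem_nhds hxb] with y h1 h2 using h1 h2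

/-- THE CONIC INVARIANT IS EVEN about a point about which `W = Φ'` is odd -/
theorem conic_even {W : ℂ → ℂ} {b lam : ℂ} (h : ∀ᶠ x in 𝓝[≠] b, W (2 * b - x) = -W x) :
    ∀ᶠ x in 𝓝[≠] b, (2 * W (2 * b - x) ^ 3 + deriv (deriv W) (2 * b - x)) / (lam * W (2 * b - x)) =
      (2 * W x ^ 3 + deriv (deriv W) x) / (lam * W x) := by
  have h1 : ∀ᶠ x in 𝓝[≠] b, deriv W (2 * b - x) = deriv W x := by
    filter_upwards [deriv_punct h] with x hx
    rw [deriv_comp_const_sub, deriv.fun_neg] at hx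
    exact neg_injective hx
  have h2 : ∀ᶠ x in 𝓝[≠] b, deriv (deriv W) (2 * b - x) = -deriv (deriv W) x := by
    filter_upwards [deriv_punct h1] with x hx
    rw [deriv_comp_const_sub] at hx
    linear_combination -hx
  filter_upwards [h, h2] with x g1 g2
  rw [g1, g2, show 2 * (-W x) ^ 3 + -deriv (deriv W) x = -(2 * W x ^ 3 + deriv (deriv W) x) by ring,
    show lam * -W x = -(lam * W x) by ring, neg_div_neg_eq]

/-- the conic invariant is even about an isotropic point: `F = exp (s i Φ)` has a zero at `b`,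
`ρ = F ^ 3 R(F)`, `ρ Φ' ^ 3 = c` -/
theorem conic_even_iso {s : ℂ} {R F : ℂ → ℂ} {b c lam ε : ℂ} {ε' : ℝ}
    (E : Alg.EndI s 1 3 R ε') (hc : c ≠ 0) (hF : AnalyticAt ℂ F b) (h0 : F b = 0)
    (e : ∀ᶠ x in 𝓝 b, R (F x) * deriv F x ^ 3 = c) {W : ℂ → ℂ} {κ : ℂ}
    (hW : ∀ᶠ x in 𝓝[≠] b, W x = κ * (deriv F x / F x)) :
    (∀ᶠ x in 𝓝 b, F (2 * b - x) = -F x) ∧ (∀ᶠ x in 𝓝[≠] b, W (2 * b - x) = -W x) ∧
    ∀ᶠ x in 𝓝[≠] b, (2 * W (2 * b - x) ^ 3 + deriv (deriv W) (2 * b - x)) / (lam * W (2 * b - x)) =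
      (2 * W x ^ 3 + deriv (deriv W) x) / (lam * W x) := by
  have hmem0 : (0 : ℂ) ∈ ball (0 : ℂ) ε' := mem_ball_self E.hε
  have hR : AnalyticAt ℂ R 0 := E.dR.analyticAt (isOpen_ball.mem_nhds hmem0)
  have h1 := odd_of_even hR (E.R0 0 hmem0) (even_iso E) hc hF h0 e
  have h2 : ∀ᶠ x in 𝓝[≠] b, W (2 * b - x) = -W x := by
    filter_upwards [hW, (refl_punct b).eventually hW,
      (logDeriv_odd hF h1).filter_mono nhdsWithin_le_nhds] with x g1 g2 g3
    rw [g1, g2, g3]
    ring
  exact ⟨h1, h2, conic_even h2⟩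

end Vale.Agent.P097.H772
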