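import Vale.Agent.P097.H772.Even

/-! # P097 / ALG-LI as a special case of the evenness at isotropic ends.  Owner: helper772. -/

namespace Vale.Agent.P097.H772

open Vale.Agent.P097.Alg

/-- ALG-LI -/
theorem pli : PLI := fun _ _ _ _ E j h0 h1 =>
  even_end E j fun h => absurd (Nat.le_of_dvd h0 h) (not_le.2 h1)

end Vale.Agent.P097.H772
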