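import Vale.Agent.P097.TC.Defs5

/-!
# P097 / block (T), row TD-ARC : the arc of the discs at outer scale `ϱ = cc * S`, centre `a`, lies in a
fixed compact of the wide cone in the straight blown up coordinates at the nested point `(y, u, S)`
-/

set_option linter.all false

open Complex Metric Filter Topology Set

namespace Vale.Agent.P097.H772.TD

open Vale.Agent.P097.H85 Vale.Agent.P097.H929

/-- the fixed compact -/
def Karc (X e g : ℝ) : Set (ℂ × ℂ) :=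
  {ζ | ‖ζ.1‖ ≤ X ∧ ‖ζ.2‖ ≤ X ∧ e ≤ ζ.2.im ∧ ζ.1.im ≤ g * ζ.2.im}

theorem Karc_compact (X e g : ℝ) : IsCompact (Karc X e g) := by
  have hc : IsClosed (Karc X e g) := by
    have i1 : IsClosed {ζ : ℂ × ℂ | ‖ζ.1‖ ≤ X} := isClosed_le (by fun_prop) continuous_const
    have i2 : IsClosed {ζ : ℂ × ℂ | ‖ζ.2‖ ≤ X} := isClosed_le (by fun_prop) continuous_const
    have i3 : IsClosed {ζ : ℂ × ℂ | e ≤ ζ.2.im} :=
      isClosed_le continuous_const (Complex.continuous_im.comp continuous_snd)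
    have i4 : IsClosed {ζ : ℂ × ℂ | ζ.1.im ≤ g * ζ.2.im} :=
      isClosed_le (Complex.continuous_im.comp continuous_fst)
        (continuous_const.mul (Complex.continuous_im.comp continuous_snd))
    exact i1.inter (i2.inter (i3.inter i4))
  refine (isCompact_closedBall (0 : ℂ × ℂ) X).of_isClosed_subset hc ?_
  rintro ζ ⟨h1, h2, -, -⟩
  rw [mem_closedBall, dist_zero_right]
  exact max_le h1 h2

theorem Karc_sub {X e g G : ℝ} (he : 0 < e) (hg : g < G) : Karc X e g ⊆ A5.Wd G := by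
  rintro ζ ⟨-, -, h3, h4⟩
  have h0 : 0 < ζ.2.im := lt_of_lt_of_le he h3
  exact ⟨h0, h4.trans_lt (mul_lt_mul_of_pos_right hg h0)⟩

theorem im_up {si Ψi Pa Pu ca c0 ka k0 σ s₂ γ wr wi a u : ℝ} (hγ : 0 < γ) (hwi : 0 < wi)
    (h1 : si ≤ (s₂ - k0) * wi) (h2 : |ka - k0| ≤ γ / 4)
    (h3 : |Pa - Pu| + |c0 * (a - u)| + |(ca - c0) * (wr - a)| +
      |Ψi - Pa - ca * (wr - a) - ka * wi| ≤ γ / 2 * wi) :
    si + Ψi - Pu - c0 * (wr - u) - σ * wi ≤ (s₂ + γ - σ) * wi := by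
  have e1 : si + Ψi - Pu - c0 * (wr - u) - σ * wi = si + (Ψi - Pa - ca * (wr - a) - ka * wi) +
    (ca - c0) * (wr - a) + (Pa - Pu) - c0 * (a - u) + (ka - k0) * wi + (k0 - σ) * wi := by ring
  have e2 : (ka - k0) * wi ≤ γ / 4 * wi :=
    mul_le_mul_of_nonneg_right ((le_abs_self _).trans h2) hwi.le
  have f1 := le_abs_self (Pa - Pu)
  have f2 := neg_le_abs (c0 * (a - u))
  have f3 := le_abs_self ((ca - c0) * (wr - a))
  have f4 := le_abs_self (Ψi - Pa - ca * (wr - a) - ka * wi)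
  have e3 : (s₂ + γ - σ) * wi = (s₂ - k0) * wi + γ * wi + (k0 - σ) * wi := by ring
  have e4 : 0 < γ * wi := mul_pos hγ hwi
  have e5 : γ / 4 * wi = γ * wi / 4 := by ring
  have e6 : γ / 2 * wi = γ * wi / 2 := by ring
  rw [e1, e3]
  linarith

theorem im_abs {si Ψi Pa Pu ca c0 ka σ wr wi a u B1 B2 B3 B4 B5 B6 B7 : ℝ}
    (h1 : |si| ≤ B1) (h2 : |Ψi - Pa - ca * (wr - a) - ka * wi| ≤ B2) (h3 : |ca * (wr - a)| ≤ B3)
    (h4 : |ka * wi| ≤ B4) (h5 : |Pa - Pu| ≤ B5) (h6 : |c0 * (wr - u)| ≤ B6) (h7 : |σ * wi| ≤ B7) :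
    |si + Ψi - Pu - c0 * (wr - u) - σ * wi| ≤ B1 + B2 + B3 + B4 + B5 + B6 + B7 := by
  rw [abs_le] at *
  constructor <;> linarith [h1.1, h1.2, h2.1, h2.2, h3.1, h3.2, h4.1, h4.2, h5.1, h5.2, h6.1, h6.2,
    h7.1, h7.2]

theorem re_abs {sr Ψr Pa x₁ y y' c0 σ wr wi u B1 B2 B3 B4 B5 B6 : ℝ}
    (h1 : |sr - x₁| ≤ B1) (h2 : |x₁ - (y' - Pa)| ≤ B2) (h3 : |y' - y| ≤ B3)
    (h4 : |Ψr - Pa| ≤ B4) (h5 : |c0 * wi| ≤ B5) (h6 : |σ * (wr - u)| ≤ B6) :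
    |sr + Ψr - y + c0 * wi - σ * (wr - u)| ≤ B1 + B2 + B3 + B4 + B5 + B6 := by
  rw [abs_le] at *
  constructor <;> linarith [h1.1, h1.2, h2.1, h2.2, h3.1, h3.2, h4.1, h4.2, h5.1, h5.2, h6.1, h6.2]

/-- one label: everything at the scale `ϱ` -/
theorem arc_one {M : Set (ℂ × ℂ)} {b m : ℝ} {Ψ : ℂ → ℂ} {a u ρ : ℝ} {Pa Pu : ℂ} {ca ka c0 k0 : ℝ}
    {c2 ε : ℝ} (hC : Cmp M b m Ψ a ρ Pa ca ka c2 ε)
    {σ s₂ C' cc γ Sb S y y' x₁ ϱ : ℝ} (hϱ : ϱ = cc * S) (hc2 : 0 < c2) (hC' : 0 < C') (hcc : 0 < cc) (hγ : 0 < γ)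
    (hε0 : 0 < ε) (hε1 : ε ≤ 1) (hSb : 0 ≤ Sb) (b1 : |ca| ≤ Sb) (b2 : |ka| ≤ Sb) (b3 : |c0| ≤ Sb)
    (b4 : |k0| ≤ Sb) (hS : 0 < S) (hρ : ϱ < ρ) (hka : |ka - k0| ≤ γ / 4)
    (hau : |a - u| ≤ ϱ) (hyy : |y' - y| ≤ ϱ) (hP1 : |Pa.im - Pu.im| ≤ ϱ)
    (hx₁ : |x₁ - (y' - Pa.re)| ≤ C' * ϱ)
    (hsm : |Pa.im - Pu.im| + Sb * |a - u| + |ca - c0| * ϱ + 2 * ε * ϱ ≤
      γ / 2 * (c2 * ϱ))
    {t w : ℂ} (hw : ‖w - a‖ ≤ ϱ) (hwi : c2 * ϱ ≤ w.im)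
    (hre : |(t - Ψ w).re - x₁| ≤ C' * ϱ) (him1 : -(C' * ϱ) ≤ (t - Ψ w).im)
    (him2 : (t - Ψ w).im ≤ (s₂ - k0) * w.im) :
    ∃ ζ ∈ Karc ((3 * C' + |s₂| + 12 * Sb + 6 * |σ| + 20) * cc) (c2 * cc) (s₂ + γ - σ),
      (t, w) = kpt Pu.im c0 σ y u S ζ := by
  have hϱ0 : 0 < ϱ := by rw [hϱ]; positivity
  have hwi0 : 0 < w.im := lt_of_lt_of_le (by positivity) hwi
  have hwre : |w.re - a| ≤ ϱ := by
    have := (Complex.abs_re_le_norm (w - a)).trans hw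
    simpa using this
  have hwim : w.im ≤ ϱ := by
    have := (Complex.abs_im_le_norm (w - a)).trans hw
    simp only [sub_im, ofReal_im, sub_zero] at this
    exact (le_abs_self _).trans this
  have hcone : c2 * |w.re - a| ≤ w.im := (mul_le_mul_of_nonneg_left hwre hc2.le).trans hwi
  obtain ⟨q1, q2⟩ := hC.re_im hε0.le (hwre.trans_lt hρ) hwi0 (hwim.trans_lt hρ) hcone hwre hwim
  have hwu : ‖w - u‖ ≤ 2 * ϱ := by
    have h1 : w - (u : ℂ) = (w - a) + ((a - u : ℝ) : ℂ) := by push_cast; ring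
    rw [h1]
    refine (norm_add_le _ _).trans ?_
    rw [Complex.norm_real, Real.norm_eq_abs]
    linarith
  have hwu' : |w.re - u| ≤ 2 * ϱ := by
    have := (Complex.abs_re_le_norm (w - u)).trans hwu
    simpa using this
  obtain ⟨W', hW'⟩ : ∃ x : ℂ, x = (w - u) / S := ⟨_, rfl⟩
  obtain ⟨κ, hκ⟩ : ∃ x : ℂ, x = (t - (y + Pu.im * I)) / S - (I * c0 + σ) * W' := ⟨_, rfl⟩
  have hS' : (S : ℂ) ≠ 0 := by exact_mod_cast hS.ne'
  have hW'im : W'.im = w.im / S := by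
    rw [hW', Complex.div_ofReal_im]; simp
  have hnum : κ * S = t - (y + Pu.im * I) - (I * c0 + σ) * (w - u) := by
    rw [hκ, hW']; field_simp
  have hre' : κ.re * S = (t - Ψ w).re + (Ψ w).re - y + c0 * w.im - σ * (w.re - u) := by
    have := congrArg Complex.re hnum
    simp only [mul_re, ofReal_re, ofReal_im, mul_zero, sub_zero, sub_re, add_re, I_re, I_im,
      mul_one, zero_mul, add_im, mul_im, sub_im, one_mul, zero_add, add_zero] at this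
    rw [this, sub_re]; ring
  have him' : κ.im * S = (t - Ψ w).im + (Ψ w).im - Pu.im - c0 * (w.re - u) - σ * w.im := by
    have := congrArg Complex.im hnum
    simp only [mul_re, ofReal_re, ofReal_im, mul_zero, sub_zero, sub_re, add_re, I_re, I_im,
      mul_one, zero_mul, add_im, mul_im, sub_im, one_mul, zero_add, add_zero] at this
    rw [this, sub_im]; ring
  have hIm : κ.im * S ≤ (s₂ + γ - σ) * w.im := by
    rw [him']
    refine im_up (Pa := Pa.im) (ca := ca) (ka := ka) (k0 := k0) (a := a) hγ hwi0 him2 hka ?_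
    have e2 : |c0 * (a - u)| ≤ Sb * |a - u| := by
      rw [abs_mul]; exact mul_le_mul_of_nonneg_right b3 (abs_nonneg _)
    have e3 : |(ca - c0) * (w.re - a)| ≤ |ca - c0| * ϱ := by
      rw [abs_mul]; exact mul_le_mul_of_nonneg_left hwre (abs_nonneg _)
    have e8 : γ / 2 * (c2 * ϱ) ≤ γ / 2 * w.im := mul_le_mul_of_nonneg_left hwi (by positivity)
    linarith
  have z1 : 0 ≤ |σ| * ϱ := by positivity
  have z2 : 0 ≤ Sb * ϱ := by positivity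
  have z3 : 0 ≤ |s₂| * ϱ := by positivity
  have z4 : 0 ≤ C' * ϱ := by positivity
  have zε : 2 * ε * ϱ ≤ 2 * ϱ := by
    have := mul_le_mul_of_nonneg_right hε1 hϱ0.le
    linarith
  have a1 : |(t - Ψ w).im| ≤ C' * ϱ + |s₂| * ϱ + Sb * ϱ := by
    rw [abs_le]
    constructor
    · linarith
    · refine him2.trans ?_
      have h1 : s₂ - k0 ≤ |s₂| + Sb := by
        have := neg_le_abs k0
        have := le_abs_self s₂
        linarith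
      have h3 : (s₂ - k0) * w.im ≤ (|s₂| + Sb) * w.im := mul_le_mul_of_nonneg_right h1 hwi0.le
      have h4 : (|s₂| + Sb) * w.im ≤ (|s₂| + Sb) * ϱ := mul_le_mul_of_nonneg_left hwim (by positivity)
      have h5 : (|s₂| + Sb) * ϱ = |s₂| * ϱ + Sb * ϱ := by ring
      linarith
  have a3 : |ca * (w.re - a)| ≤ Sb * ϱ := by
    rw [abs_mul]; exact mul_le_mul b1 hwre (abs_nonneg _) hSb
  have a4 : |ka * w.im| ≤ Sb * ϱ := by
    rw [abs_mul, abs_of_pos hwi0]; exact mul_le_mul b2 hwim hwi0.le hSb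
  have a6 : |c0 * (w.re - u)| ≤ Sb * (2 * ϱ) := by
    rw [abs_mul]; exact mul_le_mul b3 hwu' (abs_nonneg _) hSb
  have a7 : |σ * w.im| ≤ |σ| * ϱ := by
    rw [abs_mul, abs_of_pos hwi0]; exact mul_le_mul_of_nonneg_left hwim (abs_nonneg _)
  have a8 : |c0 * w.im| ≤ Sb * ϱ := by
    rw [abs_mul, abs_of_pos hwi0]; exact mul_le_mul b3 hwim hwi0.le hSb
  have a9 : |σ * (w.re - u)| ≤ |σ| * (2 * ϱ) := by
    rw [abs_mul]; exact mul_le_mul_of_nonneg_left hwu' (abs_nonneg _)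
  have q1' : |(Ψ w).re - Pa.re| ≤ 2 * (Sb * ϱ) + 2 * ϱ := by
    refine q1.trans ?_
    have h1 : (|ca| + |ka| + 2 * ε) * ϱ ≤ (Sb + Sb + 2) * ϱ :=
      mul_le_mul_of_nonneg_right (by linarith) hϱ0.le
    have h2 : (Sb + Sb + 2) * ϱ = 2 * (Sb * ϱ) + 2 * ϱ := by ring
    linarith
  have hIabs := im_abs a1 q2 a3 a4 hP1 a6 a7
  rw [← him', abs_mul, abs_of_pos hS] at hIabs
  have hRabs := re_abs hre hx₁ hyy q1' a8 a9
  rw [← hre', abs_mul, abs_of_pos hS] at hRabs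
  have hn : ‖κ‖ ≤ (3 * C' + |s₂| + 12 * Sb + 6 * |σ| + 20) * cc := by
    refine (Complex.norm_le_abs_re_add_abs_im κ).trans ?_
    have h4 : (|κ.re| + |κ.im|) * S ≤ ((3 * C' + |s₂| + 12 * Sb + 6 * |σ| + 20) * cc) * S := by
      have e : ((3 * C' + |s₂| + 12 * Sb + 6 * |σ| + 20) * cc) * S =
          3 * (C' * ϱ) + |s₂| * ϱ + 12 * (Sb * ϱ) + 6 * (|σ| * ϱ) + 20 * ϱ := by rw [hϱ]; ring
      have e' : (|κ.re| + |κ.im|) * S = |κ.re| * S + |κ.im| * S := by ring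
      rw [e, e']
      linarith
    exact le_of_mul_le_mul_right h4 hS
  refine ⟨(κ, W'), ⟨hn, ?_, ?_, ?_⟩, ?_⟩
  · have h1 : ‖W'‖ ≤ 2 * cc := by
      rw [hW', norm_div, Complex.norm_real, Real.norm_of_nonneg hS.le, div_le_iff₀ hS]
      have : 2 * cc * S = 2 * ϱ := by rw [hϱ]; ring
      linarith
    refine h1.trans (mul_le_mul_of_nonneg_right ?_ hcc.le)
    have := abs_nonneg s₂
    have := abs_nonneg σ
    linarith
  · show c2 * cc ≤ W'.im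
    rw [hW'im, le_div_iff₀ hS]
    have : c2 * cc * S = c2 * ϱ := by rw [hϱ]; ring
    linarith
  · show κ.im ≤ (s₂ + γ - σ) * W'.im
    rw [hW'im, mul_div_assoc', le_div_iff₀ hS]
    exact hIm
  · rw [kpt_eq]
    refine Prod.ext ?_ ?_
    · show t = (y : ℂ) + (Pu.im : ℂ) * I + S * (κ + (I * c0 + σ) * W')
      have h1 : (S : ℂ) * (κ + (I * c0 + σ) * W') = κ * S + (I * c0 + σ) * (S * W') := by ring
      have h2 : (S : ℂ) * W' = w - u := by rw [hW']; field_simp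
      rw [h1, h2, hnum]
      ring
    · show w = (u : ℂ) + S * W'
      have h2 : (S : ℂ) * W' = w - u := by rw [hW']; field_simp
      rw [h2]; ring

/-- **TD-ARC** -/
theorem arc {M : Set (ℂ × ℂ)} {b m : ℝ} {Ψ : ℂ → ℂ} {A : Set ℝ} {P : ℝ → ℂ} {c k : ℝ → ℝ}
    (hU : CmpU M b m Ψ A P c k)
    (hP : ∃ d > 0, ∃ C : ℝ, ∀ a ∈ A, ∀ a' ∈ A, |a - a'| < d → ‖P a - P a'‖ ≤ C * |a - a'|)
    {u₀ : ℝ} (hu₀ : u₀ ∈ A) (hc : ContinuousWithinAt c A u₀) (hk : ContinuousWithinAt k A u₀)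
    {σ s s₂ c2 C' cc : ℝ} (h2 : s₂ < s) (hc2 : 0 < c2) (hC' : 0 < C') (hcc : 0 < cc) :
    ∃ K : Set (ℂ × ℂ), IsCompact K ∧ K ⊆ A5.Wd (s - σ) ∧ ∃ δ > 0, ∀ a ∈ A, ∀ u ∈ A, |u - u₀| < δ →
      ∀ y y' x₁ S : ℝ, 0 < S → S < δ → |a - u| ≤ δ * (cc * S) → |y' - y| ≤ δ * (cc * S) →
      |x₁ - (y' - (P a).re)| ≤ C' * (cc * S) → ∀ t w : ℂ, ‖w - a‖ ≤ cc * S →
      c2 * (cc * S) ≤ w.im → |(t - Ψ w).re - x₁| ≤ C' * (cc * S) →
      -(C' * (cc * S)) ≤ (t - Ψ w).im → (t - Ψ w).im ≤ (s₂ - k u₀) * w.im →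
      ∃ ζ ∈ K, (t, w) = kpt (P u).im (c u₀) σ y u S ζ := by
  obtain ⟨Sb, hSb⟩ := hU.bd
  obtain ⟨dP, hdP, Cp, hCp⟩ := hP
  have hSb0 : 0 ≤ Sb := (abs_nonneg _).trans (hSb u₀ hu₀).1
  obtain ⟨γ, hγ⟩ : ∃ x, x = (s - s₂) / 2 := ⟨_, rfl⟩
  have hγ0 : 0 < γ := by rw [hγ]; linarith
  have hγc : 0 < γ * c2 := mul_pos hγ0 hc2
  obtain ⟨ε, hε0, hε1, hε2⟩ : ∃ x : ℝ, 0 < x ∧ x ≤ 1 ∧ 2 * x ≤ γ * c2 / 8 :=
    ⟨min 1 (γ * c2 / 16), by positivity, min_le_left _ _, by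
      have := min_le_right (1 : ℝ) (γ * c2 / 16); linarith⟩
  obtain ⟨η, hη0, hη1, hη2⟩ : ∃ x : ℝ, 0 < x ∧ x ≤ γ / 4 ∧ x ≤ γ * c2 / 8 :=
    ⟨min (γ / 4) (γ * c2 / 8), by positivity, min_le_left _ _, min_le_right _ _⟩
  obtain ⟨ρ, hρ, hcmp⟩ := hU.cmp c2 hc2 ε hε0
  obtain ⟨dc, hdc, hcc'⟩ := Metric.continuousWithinAt_iff.1 hc η hη0
  obtain ⟨dk, hdk, hkk'⟩ := Metric.continuousWithinAt_iff.1 hk η hη0
  obtain ⟨Cq, hCq⟩ : ∃ x, x = |Cp| + Sb + 1 := ⟨_, rfl⟩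
  have hCp0 := abs_nonneg Cp
  have hCq0 : 0 < Cq := by rw [hCq]; linarith
  have hp1 : (0 : ℝ) < 1 + cc := by linarith
  have key : ∀ x : ℝ, 0 < x → ∃ d : ℝ, 0 < d ∧ ∀ δ ≤ d, δ * (1 + cc) ≤ x := fun x hx =>
    ⟨x / (1 + cc), by positivity, fun δ h => by
      have := mul_le_mul_of_nonneg_right h hp1.le
      rwa [div_mul_cancel₀ _ hp1.ne'] at this⟩
  have key2 : ∀ x : ℝ, 0 < x → ∃ d : ℝ, 0 < d ∧ ∀ δ ≤ d, δ * Cq ≤ x := fun x hx =>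
    ⟨x / Cq, by positivity, fun δ h => by
      have := mul_le_mul_of_nonneg_right h hCq0.le
      rwa [div_mul_cancel₀ _ hCq0.ne'] at this⟩
  obtain ⟨d1, hd1, k1⟩ := key dc hdc
  obtain ⟨d2, hd2, k2⟩ := key dk hdk
  obtain ⟨d3, hd3, k3⟩ := key (dP / 2) (by positivity)
  obtain ⟨d4, hd4, k4⟩ := key (ρ / 2) (by positivity)
  obtain ⟨d5, hd5, k5⟩ := key2 (γ * c2 / 8) (by positivity)
  obtain ⟨d6, hd6, k6⟩ := key2 1 one_pos
  obtain ⟨δ, hδ0, l0, l1, l2, l3, l4, l5, l6⟩ : ∃ δ : ℝ, 0 < δ ∧ δ ≤ 1 ∧ δ ≤ d1 ∧ δ ≤ d2 ∧ δ ≤ d3 ∧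
      δ ≤ d4 ∧ δ ≤ d5 ∧ δ ≤ d6 := by
    refine ⟨min 1 (min d1 (min d2 (min d3 (min d4 (min d5 d6))))), by positivity, min_le_left _ _,
      ?_, ?_, ?_, ?_, ?_, ?_⟩ <;> simp
  replace k1 := k1 δ l1
  replace k2 := k2 δ l2
  replace k3 := k3 δ l3
  replace k4 := k4 δ l4
  replace k5 := k5 δ l5
  replace k6 := k6 δ l6
  refine ⟨Karc ((3 * C' + |s₂| + 12 * Sb + 6 * |σ| + 20) * cc) (c2 * cc) (s₂ + γ - σ),
    Karc_compact _ _ _, Karc_sub (by positivity) (by rw [hγ]; linarith), δ, hδ0, ?_⟩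
  intro a ha u hu hud y y' x₁ S hS hSδ hau hyy hx₁ t w hw hwi hre him1 him2
  have hϱ0 : 0 < cc * S := by positivity
  have hϱδ : cc * S ≤ cc * δ := mul_le_mul_of_nonneg_left hSδ.le hcc.le
  have hδϱ : δ * (cc * S) ≤ cc * S := by
    have := mul_le_mul_of_nonneg_right l0 hϱ0.le
    linarith
  have hau2 : |a - u| ≤ cc * δ := hau.trans (hδϱ.trans hϱδ)
  have hex : δ * (1 + cc) = δ + cc * δ := by ring
  have hau₀ : |a - u₀| < δ * (1 + cc) := by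
    have h1 := abs_sub_le a u u₀
    linarith
  have hca : |c a - c u₀| < η := by
    have := hcc' ha (by rw [Real.dist_eq]; linarith)
    rwa [Real.dist_eq] at this
  have hka : |k a - k u₀| < η := by
    have := hkk' ha (by rw [Real.dist_eq]; linarith)
    rwa [Real.dist_eq] at this
  have hPa : ‖P a - P u‖ ≤ |Cp| * |a - u| := by
    have h1 := hCp a ha u hu (by linarith)
    exact h1.trans (mul_le_mul_of_nonneg_right (le_abs_self _) (abs_nonneg _))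
  have hPim : |(P a).im - (P u).im| ≤ |Cp| * |a - u| := by
    have := (Complex.abs_im_le_norm (P a - P u)).trans hPa
    simpa using this
  have g1 : (|Cp| + Sb) * |a - u| ≤ (δ * Cq) * (cc * S) := by
    have h1 : (|Cp| + Sb) * |a - u| ≤ Cq * (δ * (cc * S)) :=
      mul_le_mul (by rw [hCq]; linarith) hau (abs_nonneg _) hCq0.le
    have h3 : Cq * (δ * (cc * S)) = (δ * Cq) * (cc * S) := by ring
    linarith
  have g2 : (|Cp| + Sb) * |a - u| = |Cp| * |a - u| + Sb * |a - u| := by ring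
  have g3 : 0 ≤ Sb * |a - u| := by positivity
  refine arc_one (hcmp a ha) rfl hc2 hC' hcc hγ0 hε0 hε1 hSb0 (hSb a ha).1 (hSb a ha).2 (hSb u₀ hu₀).1
    (hSb u₀ hu₀).2 hS (by linarith) (hka.le.trans hη1) (hau.trans hδϱ) (hyy.trans hδϱ) ?_ hx₁ ?_ hw
    hwi hre him1 him2
  · have h4 := mul_le_mul_of_nonneg_right k6 hϱ0.le
    linarith
  · have h4 := mul_le_mul_of_nonneg_right k5 hϱ0.le
    have h5 : |c a - c u₀| * (cc * S) ≤ γ * c2 / 8 * (cc * S) :=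
      mul_le_mul_of_nonneg_right (hca.le.trans hη2) hϱ0.le
    have h6 : 2 * ε * (cc * S) ≤ γ * c2 / 8 * (cc * S) := mul_le_mul_of_nonneg_right hε2 hϱ0.le
    have h7 : γ / 2 * (c2 * (cc * S)) = 4 * (γ * c2 / 8 * (cc * S)) := by ring
    have h8 : 0 < γ * c2 / 8 * (cc * S) := by positivity
    linarith

end Vale.Agent.P097.H772.TD
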